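import Mathlib

/-!
A product of integers is bounded through the sizes of its upper level sets.
-/

namespace Vale.Agent.Lib.P064h

open Finset
open scoped Classical Nat

set_option linter.unusedSectionVars false
set_option linter.unusedVariables false

variable {ι : Type*}

/-- The rank bound for products. -/
theorem prod_le_prod_rank (g : ℕ → ℝ) (δ : ι → ℕ) : ∀ (m : ℕ) (S : Finset ι), S.card = m →
    (∀ j τ : ℕ, 1 ≤ j → j ≤ (S.filter (fun z => τ ≤ δ z)).card → (τ : ℝ) ≤ g j) →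
    (∏ z ∈ S, (δ z : ℝ)) ≤ ∏ j ∈ range m, g (j + 1) := by
  intro m
  induction m with
  | zero =>
    intro S hS _
    rw [Finset.card_eq_zero.mp hS]
    simp
  | succ m ih =>
    intro S hS hg
    have hne : S.Nonempty := by
      rw [← Finset.card_pos]; omega
    obtain ⟨z₀, hz₀, hmin⟩ := Finset.exists_min_image S δ hne
    have h1 : (δ z₀ : ℝ) ≤ g (m + 1) := by
      refine hg (m + 1) (δ z₀) (by omega) ?_
      rw [Finset.filter_true_of_mem (fun z hz => hmin z hz), hS]
    have h2 := ih (S.erase z₀) (by rw [Finset.card_erase_of_mem hz₀]; omega) (by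
      intro j τ hj hjc
      refine hg j τ hj (hjc.trans ?_)
      exact Finset.card_le_card
        (Finset.filter_subset_filter _ (Finset.erase_subset _ _)))
    rw [← Finset.mul_prod_erase S _ hz₀, Finset.prod_range_succ, mul_comm]
    have h3 : (0 : ℝ) ≤ ∏ z ∈ S.erase z₀, (δ z : ℝ) := by positivity
    have h4 : (0 : ℝ) ≤ (δ z₀ : ℝ) := by positivity
    exact mul_le_mul h2 h1 h4 (h3.trans h2)

/-- The rank function. -/
noncomputable def gRank (E M : ℝ) (x : ℕ) (j : ℕ) : ℝ :=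
  if j = 1 then E else if j ≤ x then 2 * E * (1 + M) / j else 4 * E / ((j : ℝ) - x)

lemma gRank_first (E M : ℝ) {x y : ℕ} (hy : 1 ≤ y) (hyx : y ≤ x) :
    (∏ j ∈ range y, gRank E M x (j + 1)) * (y ! : ℝ) = E * (2 * E * (1 + M)) ^ (y - 1) := by
  induction y, hy using Nat.le_induction with
  | base => simp [gRank]
  | succ y hy ih =>
    have hy1 : y + 1 ≠ 1 := by omega
    have hyx' : y + 1 ≤ x := hyx
    rw [Finset.prod_range_succ, Nat.factorial_succ]
    have hg : gRank E M x (y + 1) = 2 * E * (1 + M) / ((y + 1 : ℕ) : ℝ) := by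
      simp only [gRank, hy1, hyx', if_false, if_true]
    rw [hg]
    have hpos : ((y : ℝ) + 1) ≠ 0 := by positivity
    have e : y + 1 - 1 = (y - 1) + 1 := by omega
    have key : (∏ j ∈ range y, gRank E M x (j + 1)) * (2 * E * (1 + M) / ((y + 1 : ℕ) : ℝ)) *
        ((((y + 1) * y ! : ℕ)) : ℝ)
        = ((∏ j ∈ range y, gRank E M x (j + 1)) * (y ! : ℝ)) * (2 * E * (1 + M)) := by
      push_cast
      field_simp
    rw [key, ih (by omega), e, pow_succ]
    ring

lemma gRank_second (E M : ℝ) {x : ℕ} (hx : 1 ≤ x) (i : ℕ) :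
    (∏ j ∈ range (x + i), gRank E M x (j + 1)) * ((x ! : ℝ) * (i ! : ℝ))
      = E * (2 * E * (1 + M)) ^ (x - 1) * (4 * E) ^ i := by
  induction i with
  | zero =>
    have := gRank_first E M hx (le_refl x)
    simp only [add_zero, Nat.factorial_zero, Nat.cast_one, mul_one, pow_zero]
    exact this
  | succ i ih =>
    have h1 : x + (i + 1) = (x + i) + 1 := by omega
    rw [h1, Finset.prod_range_succ, Nat.factorial_succ]
    have hne : x + i + 1 ≠ 1 := by omega
    have hnle : ¬ (x + i + 1 ≤ x) := by omega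
    have hg : gRank E M x (x + i + 1) = 4 * E / ((i : ℝ) + 1) := by
      simp only [gRank, hne, hnle, if_false]
      congr 1
      push_cast
      ring
    rw [hg]
    have hpos : ((i : ℝ) + 1) ≠ 0 := by positivity
    have key : (∏ j ∈ range (x + i), gRank E M x (j + 1)) * (4 * E / ((i : ℝ) + 1)) *
        ((x ! : ℝ) * (((i + 1) * i ! : ℕ) : ℝ))
        = ((∏ j ∈ range (x + i), gRank E M x (j + 1)) * ((x ! : ℝ) * (i ! : ℝ))) * (4 * E) := by
      push_cast
      field_simp
    rw [key, ih, pow_succ]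
    ring

/-- The product of the rank function. -/
lemma gRank_prod_le {E M : ℝ} {x y : ℕ} (hx : 1 ≤ x) (hy : 1 ≤ y) (hM : 1 ≤ M) (hE0 : 0 ≤ E)
    (hEx : E ≤ 2 * x * M) :
    (∏ j ∈ range y, gRank E M x (j + 1)) ≤ Real.exp (16 * x) * M ^ (x + y - 1) := by
  have hM0 : 0 < M := by linarith
  have hx0 : (0 : ℝ) < x := by exact_mod_cast hx
  have hA1 : 2 * E * (1 + M) ≤ 8 * x * M ^ 2 := by
    have h1 : 1 + M ≤ 2 * M := by linarith
    have h2 : 2 * E * (1 + M) ≤ 2 * (2 * x * M) * (2 * M) := by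
      refine mul_le_mul (by linarith) h1 (by linarith) (by positivity)
    calc 2 * E * (1 + M) ≤ 2 * (2 * x * M) * (2 * M) := h2
      _ = 8 * x * M ^ 2 := by ring
  have hA10 : 0 ≤ 2 * E * (1 + M) := by positivity
  have h1M : ∀ a b : ℕ, a ≤ b → M ^ a ≤ M ^ b := fun a b h => pow_le_pow_right₀ hM h
  have hexp8 : ∀ k : ℕ, (16 * (x : ℝ)) ^ k / (k ! : ℝ) ≤ Real.exp (16 * x) := fun k =>
    Real.pow_div_factorial_le_exp _ (by positivity) k
  by_cases hyx : y ≤ x
  · -- few steps
    have h1 := gRank_first E M hy hyx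
    have hfac : (0 : ℝ) < (y ! : ℝ) := by exact_mod_cast Nat.factorial_pos y
    have h2 : (∏ j ∈ range y, gRank E M x (j + 1)) = E * (2 * E * (1 + M)) ^ (y - 1) / (y ! : ℝ) := by
      rw [eq_div_iff hfac.ne']
      exact h1
    rw [h2]
    have h3 : E * (2 * E * (1 + M)) ^ (y - 1)
        ≤ (2 * x * M) * (8 * x * M ^ 2) ^ (y - 1) :=
      mul_le_mul hEx (pow_le_pow_left₀ hA10 hA1 _) (by positivity) (by positivity)
    have e1 : y = (y - 1) + 1 := by omega
    have h4 : (2 * x * M) * (8 * x * M ^ 2) ^ (y - 1) ≤ (16 * (x : ℝ)) ^ y * M ^ (x + y - 1) := by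
      have e2 : (2 * (x : ℝ) * M) * (8 * x * M ^ 2) ^ (y - 1)
          = (2 * x * (8 * x) ^ (y - 1)) * M ^ (2 * (y - 1) + 1) := by
        rw [mul_pow, ← pow_mul]
        ring
      rw [e2]
      refine mul_le_mul ?_ (h1M _ _ (by omega)) (by positivity) (by positivity)
      have e3 : (16 * (x : ℝ)) ^ y = 16 * x * (16 * x) ^ (y - 1) := by
        conv_lhs => rw [e1]
        ring
      rw [e3]
      have h5 : (8 * (x : ℝ)) ^ (y - 1) ≤ (16 * x) ^ (y - 1) :=
        pow_le_pow_left₀ (by positivity) (by linarith) _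
      have h6 : 2 * (x : ℝ) ≤ 16 * x := by linarith
      exact mul_le_mul h6 h5 (by positivity) (by positivity)
    calc E * (2 * E * (1 + M)) ^ (y - 1) / (y ! : ℝ)
        ≤ ((16 * (x : ℝ)) ^ y * M ^ (x + y - 1)) / (y ! : ℝ) :=
          div_le_div_of_nonneg_right (h3.trans h4) hfac.le
      _ = ((16 * (x : ℝ)) ^ y / (y ! : ℝ)) * M ^ (x + y - 1) := by ring
      _ ≤ Real.exp (16 * x) * M ^ (x + y - 1) :=
          mul_le_mul_of_nonneg_right (hexp8 y) (by positivity)
  · -- many steps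
    push Not at hyx
    obtain ⟨i, rfl⟩ : ∃ i, y = x + i := ⟨y - x, by omega⟩
    have h1 := gRank_second E M hx i
    have hfx : (0 : ℝ) < (x ! : ℝ) := by exact_mod_cast Nat.factorial_pos x
    have hfi : (0 : ℝ) < (i ! : ℝ) := by exact_mod_cast Nat.factorial_pos i
    have hfy : (0 : ℝ) < ((x + i)! : ℝ) := by exact_mod_cast Nat.factorial_pos _
    have h2 : (∏ j ∈ range (x + i), gRank E M x (j + 1))
        = E * (2 * E * (1 + M)) ^ (x - 1) * (4 * E) ^ i / ((x ! : ℝ) * (i ! : ℝ)) := by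
      rw [eq_div_iff (by positivity)]
      exact h1
    rw [h2]
    have h3 : E * (2 * E * (1 + M)) ^ (x - 1) * (4 * E) ^ i
        ≤ (2 * x * M) * (8 * x * M ^ 2) ^ (x - 1) * (8 * x * M) ^ i := by
      refine mul_le_mul (mul_le_mul hEx (pow_le_pow_left₀ hA10 hA1 _) (by positivity) (by positivity))
        (pow_le_pow_left₀ (by positivity) (by linarith) _) (by positivity) (by positivity)
    have h4 : (2 * x * M) * (8 * x * M ^ 2) ^ (x - 1) * (8 * x * M) ^ i
        ≤ (8 * (x : ℝ)) ^ (x + i) * M ^ (x + (x + i) - 1) := by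
      have e1 : x = (x - 1) + 1 := by omega
      have e2 : (2 * (x : ℝ) * M) * (8 * x * M ^ 2) ^ (x - 1) * (8 * x * M) ^ i
          = (2 * x * (8 * x) ^ (x - 1) * (8 * x) ^ i) * M ^ (2 * (x - 1) + 1 + i) := by
        rw [mul_pow, mul_pow, ← pow_mul, pow_add, pow_add]
        ring
      rw [e2]
      have e3 : x + (x + i) - 1 = 2 * (x - 1) + 1 + i := by omega
      rw [e3]
      refine mul_le_mul_of_nonneg_right ?_ (by positivity)
      have e4 : (8 * (x : ℝ)) ^ (x + i) = 8 * x * (8 * x) ^ (x - 1) * (8 * x) ^ i := by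
        rw [show x + i = (x - 1) + 1 + i by omega]
        ring
      rw [e4]
      have h5 : 0 ≤ (8 * (x : ℝ)) ^ (x - 1) * (8 * x) ^ i := by positivity
      nlinarith
    -- the binomial bound
    have hchoose : ((x + i)! : ℝ) ≤ 2 ^ (x + i) * ((x ! : ℝ) * (i ! : ℝ)) := by
      have h5 := Nat.add_choose_mul_factorial_mul_factorial x i
      have h6 : (x + i).choose i ≤ 2 ^ (x + i) := by
        have := Nat.choose_le_two_pow (x + i) i
        exact this
      have h7 : (x + i)! ≤ 2 ^ (x + i) * (x ! * i !) := by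
        calc (x + i)! = (x + i).choose i * x ! * i ! := h5.symm
          _ = (x + i).choose i * (x ! * i !) := by ring
          _ ≤ 2 ^ (x + i) * (x ! * i !) := Nat.mul_le_mul_right _ h6
      exact_mod_cast h7
    have h8 : 1 / ((x ! : ℝ) * (i ! : ℝ)) ≤ 2 ^ (x + i) / ((x + i)! : ℝ) := by
      rw [div_le_div_iff₀ (by positivity) hfy]
      linarith
    calc E * (2 * E * (1 + M)) ^ (x - 1) * (4 * E) ^ i / ((x ! : ℝ) * (i ! : ℝ))
        = (E * (2 * E * (1 + M)) ^ (x - 1) * (4 * E) ^ i) * (1 / ((x ! : ℝ) * (i ! : ℝ))) := by ring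
      _ ≤ ((8 * (x : ℝ)) ^ (x + i) * M ^ (x + (x + i) - 1)) * (2 ^ (x + i) / ((x + i)! : ℝ)) :=
          mul_le_mul (h3.trans h4) h8 (by positivity) (by positivity)
      _ = ((16 * (x : ℝ)) ^ (x + i) / ((x + i)! : ℝ)) * M ^ (x + (x + i) - 1) := by
          have : (16 * (x : ℝ)) ^ (x + i) = (8 * (x : ℝ)) ^ (x + i) * 2 ^ (x + i) := by
            rw [← mul_pow]; ring_nf
          rw [this]
          ring
      _ ≤ Real.exp (16 * x) * M ^ (x + (x + i) - 1) :=
          mul_le_mul_of_nonneg_right (hexp8 _) (by positivity)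

/-- The product of the costs. -/
theorem prod_delta_le (S : Finset ι) (δ : ι → ℕ) (Qc : ℕ → ℝ) {E M : ℝ} {x : ℕ}
    (hx : 1 ≤ x) (hM : 1 ≤ M) (hE0 : 0 ≤ E) (hEx : E ≤ 2 * x * M)
    (hδ : ∀ z ∈ S, (δ z : ℝ) ≤ E)
    (h1 : ∀ τ : ℕ, 1 ≤ τ → ((S.filter (fun z => τ ≤ δ z)).card : ℝ) ≤ Qc τ * (1 + M))
    (h2 : ∀ τ : ℕ, 1 ≤ τ → ((S.filter (fun z => τ ≤ δ z)).card : ℝ) ≤ 2 * Qc τ + x)
    (h3 : ∀ τ : ℕ, 1 ≤ τ → Qc τ * τ ≤ 2 * E) (hS : 1 ≤ S.card) :
    ∏ z ∈ S, (δ z : ℝ) ≤ Real.exp (16 * x) * M ^ (x + S.card - 1) := by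
  refine le_trans (prod_le_prod_rank (gRank E M x) δ S.card S rfl ?_) (gRank_prod_le hx hS hM hE0 hEx)
  intro j τ hj hjc
  rcases Nat.eq_zero_or_pos τ with hτ0 | hτ0
  · -- `τ = 0`
    have h0 : 0 ≤ gRank E M x j := by
      unfold gRank
      split_ifs with h4 h5
      · exact hE0
      · positivity
      · have h6 : (x : ℝ) < j := by
          have : x < j := by omega
          exact_mod_cast this
        have h7 : 0 < (j : ℝ) - x := by linarith
        positivity
    rw [hτ0]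
    simpa using h0
  · have hτr : (0 : ℝ) < τ := by exact_mod_cast hτ0
    have hjr : ((j : ℕ) : ℝ) ≤ ((S.filter (fun z => τ ≤ δ z)).card : ℝ) := by exact_mod_cast hjc
    have hjpos : (0 : ℝ) < j := by exact_mod_cast hj
    unfold gRank
    split_ifs with h4 h5
    · -- the largest value
      have hne : (S.filter (fun z => τ ≤ δ z)).Nonempty := by
        rw [← Finset.card_pos]; omega
      obtain ⟨z, hz⟩ := hne
      rcases Finset.mem_filter.mp hz with ⟨hzS, hzτ⟩
      have : (τ : ℝ) ≤ δ z := by exact_mod_cast hzτ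
      linarith [hδ z hzS]
    · rw [le_div_iff₀ hjpos]
      have h6 := h1 τ hτ0
      have h7 := h3 τ hτ0
      have h8 : (1 : ℝ) + M ≥ 0 := by linarith
      calc (τ : ℝ) * j ≤ τ * (Qc τ * (1 + M)) :=
            mul_le_mul_of_nonneg_left (hjr.trans h6) hτr.le
        _ = (Qc τ * τ) * (1 + M) := by ring
        _ ≤ (2 * E) * (1 + M) := mul_le_mul_of_nonneg_right h7 h8
        _ = 2 * E * (1 + M) := by ring
    · have h6 : (x : ℝ) < j := by
        have : x < j := by omega
        exact_mod_cast this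
      have h7 : 0 < (j : ℝ) - x := by linarith
      rw [le_div_iff₀ h7]
      have h8 := h2 τ hτ0
      have h9 := h3 τ hτ0
      calc (τ : ℝ) * ((j : ℝ) - x) ≤ τ * (2 * Qc τ) := by
            refine mul_le_mul_of_nonneg_left ?_ hτr.le
            linarith
        _ = 2 * (Qc τ * τ) := by ring
        _ ≤ 2 * (2 * E) := by linarith
        _ = 4 * E := by ring

end Vale.Agent.Lib.P064h
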