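import Vale.Agent.Lib.P064h.Hyp
import Vale.Agent.Lib.P064h.Sorted

/-!
A block of the pattern: edge budgets, the union of all copies through a vertex, and simple counts.
-/

namespace Vale.Agent.Lib.P064h

open Finset SimpleGraph Vale.Agent.Lib.P064
open scoped Classical Nat

set_option linter.unusedSectionVars false
set_option linter.unusedVariables false

variable {V : Type*} [Fintype V] {Z : Type*} [Fintype Z]

/-- The properties of a block `B` of the pattern `P`: proper parts of `B` are sparse at density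
`p₁`, while the block itself is not. -/
structure BlockP (P : SimpleGraph Z) (B : Finset Z) (n : ℕ) (p₁ : ℝ) : Prop where
  ne : B.Nonempty
  touch : ∀ u w, P.Adj u w → u ∈ B ∨ w ∈ B
  P1 : ∀ W ⊆ B, W.Nonempty → W ≠ B → (n : ℝ) ^ W.card * p₁ ^ (tE P W).card < 1
  P2 : 1 ≤ (n : ℝ) ^ B.card * p₁ ^ (tE P B).card

lemma tE_empty (P : SimpleGraph Z) : tE P ∅ = ∅ := by
  ext e
  simp [mem_tE]

section
variable {P : SimpleGraph Z} {B : Finset Z} {n : ℕ} {q : ℝ} {H : SimpleGraph V}

lemma endpoint_mem (hb : BlockP P B n (Real.exp 1 * q)) {u w : Z} (h : P.Adj u w) :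
    u ∈ B ∨ u ∈ Kof P B := by
  by_cases hu : u ∈ B
  · exact Or.inl hu
  · rcases hb.touch u w h with h1 | h1
    · exact absurd h1 hu
    · exact Or.inr (mem_Kof.mpr ⟨hu, w, h1, h⟩)

lemma q_le_one (hq : 0 < q) (hp : Real.exp 1 * q ≤ 1) : q ≤ 1 := by
  have h1 : (1 : ℝ) ≤ Real.exp 1 := by
    have := Real.add_one_le_exp (1 : ℝ)
    linarith
  nlinarith

/-- The edge budget of a part of a block. -/
theorem e1_bound (hn : 1 ≤ n) (hq : 0 < q) (hp : Real.exp 1 * q ≤ 1)
    (hyp : ∀ F : H.Subgraph, 1 ≤ expCopies n q F.coe) (hb : BlockP P B n (Real.exp 1 * q))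
    {f : Z → V} (hf : Function.Injective f) (hadj : ∀ u w, P.Adj u w → H.Adj (f u) (f w))
    {W : Finset Z} (hWB : W ⊆ B) (hW : W.Nonempty) (hWne : W ≠ B) (Q' : Finset Z)
    (hcl : ∀ w ∈ W, ∀ w', P.Adj w w' → w' ∈ W ∨ w' ∈ Q') :
    Real.exp 1 ^ (tE P W).card ≤ (n : ℝ) ^ Q'.card := by
  have hn' : (1 : ℝ) ≤ n := by exact_mod_cast hn
  have hn0 : (0 : ℝ) < n := by linarith
  set S := (W ∪ Q').image f with hS
  set X := imgE P f W with hX
  have hXc : X.card = (tE P W).card := card_imgE P hf W
  have h1 := weak_hyp hq (q_le_one hq hp) hyp S X (fun e he => imgE_edge hadj he) (by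
    intro e he v hv
    obtain ⟨e₀, he₀, rfl⟩ := Finset.mem_image.mp he
    obtain ⟨u, hu, rfl⟩ := Sym2.mem_map.mp hv
    refine Finset.mem_image_of_mem _ ?_
    rcases mem_tE.mp he₀ with ⟨h2, z, hz, hze⟩
    induction e₀ using Sym2.ind with
    | _ a b =>
      have hab : P.Adj a b := h2
      have hz' := Sym2.mem_iff.mp hze
      have hu' := Sym2.mem_iff.mp hu
      rcases hz' with rfl | rfl
      · rcases hu' with rfl | rfl
        · exact Finset.mem_union_left _ hz
        · rcases hcl _ hz _ hab with h | h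
          · exact Finset.mem_union_left _ h
          · exact Finset.mem_union_right _ h
      · rcases hu' with rfl | rfl
        · rcases hcl _ hz _ hab.symm with h | h
          · exact Finset.mem_union_left _ h
          · exact Finset.mem_union_right _ h
        · exact Finset.mem_union_left _ hz)
  rw [hXc] at h1
  have hScard : S.card ≤ W.card + Q'.card :=
    Finset.card_image_le.trans (Finset.card_union_le _ _)
  have h2 : (n : ℝ) ^ S.card ≤ (n : ℝ) ^ (W.card + Q'.card) := pow_le_pow_right₀ hn' hScard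
  have h3 := hb.P1 W hWB hW hWne
  set b := (tE P W).card with hb'
  have hq0 : 0 < q ^ b := by positivity
  set A := (n : ℝ) ^ W.card * q ^ b with hA
  have hA0 : 0 < A := by positivity
  have h4 : 1 ≤ A * (n : ℝ) ^ Q'.card := by
    calc 1 ≤ (n : ℝ) ^ S.card * q ^ b := h1
      _ ≤ (n : ℝ) ^ (W.card + Q'.card) * q ^ b := mul_le_mul_of_nonneg_right h2 hq0.le
      _ = A * (n : ℝ) ^ Q'.card := by rw [hA, pow_add]; ring
  have h5 : Real.exp 1 ^ b * A < 1 := by
    have : (n : ℝ) ^ W.card * (Real.exp 1 * q) ^ b = Real.exp 1 ^ b * A := by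
      rw [hA, mul_pow]; ring
    rwa [this] at h3
  have hE0 : 0 < Real.exp 1 ^ b := by positivity
  have hnQ : 0 < (n : ℝ) ^ Q'.card := by positivity
  calc Real.exp 1 ^ b = Real.exp 1 ^ b * 1 := (mul_one _).symm
    _ ≤ Real.exp 1 ^ b * (A * (n : ℝ) ^ Q'.card) := mul_le_mul_of_nonneg_left h4 hE0.le
    _ = (Real.exp 1 ^ b * A) * (n : ℝ) ^ Q'.card := by ring
    _ ≤ 1 * (n : ℝ) ^ Q'.card := mul_le_mul_of_nonneg_right h5.le hnQ.le
    _ = (n : ℝ) ^ Q'.card := one_mul _

/-- The union of all copies through a fixed vertex has few edges. -/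
theorem union_budget (hn : 1 ≤ n) (hq : 0 < q) (hp : Real.exp 1 * q ≤ 1)
    (hyp : ∀ F : H.Subgraph, 1 ≤ expCopies n q F.coe) (hb : BlockP P B n (Real.exp 1 * q))
    {x : Z} (hx : x ∈ B) (G : Finset (Z → V)) (hinj : ∀ f ∈ G, Function.Injective f)
    (hadj : ∀ f ∈ G, ∀ u w, P.Adj u w → H.Adj (f u) (f w))
    (hag : ∀ f ∈ G, ∀ f' ∈ G, ∀ k ∈ insert x (Kof P B), f k = f' k) :
    Real.exp 1 ^ (G.biUnion (fun f => imgE P f B)).card ≤ (n : ℝ) ^ ((Kof P B).card + 1) := by
  have hn' : (1 : ℝ) ≤ n := by exact_mod_cast hn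
  have hn0 : (0 : ℝ) < n := by linarith
  rcases Finset.eq_empty_or_nonempty G with rfl | ⟨f₀, hf₀⟩
  · simp only [Finset.biUnion_empty, Finset.card_empty, pow_zero]
    exact one_le_pow₀ hn'
  set K := Kof P B with hK
  set R := (insert x K).image f₀ with hR
  have hRcard : R.card ≤ K.card + 1 :=
    Finset.card_image_le.trans (Finset.card_insert_le _ _)
  set p₁ := Real.exp 1 * q with hp₁
  have hp0 : 0 < p₁ := by positivity
  have key : ∀ G' : Finset (Z → V), G' ⊆ G →
      (∀ e ∈ G'.biUnion (fun f => imgE P f B), ∀ v ∈ e, v ∈ R ∪ G'.biUnion (fun f => B.image f)) ∧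
      (n : ℝ) ^ (R ∪ G'.biUnion (fun f => B.image f)).card *
        p₁ ^ (G'.biUnion (fun f => imgE P f B)).card ≤ (n : ℝ) ^ R.card := by
    intro G'
    induction G' using Finset.induction_on with
    | empty =>
      intro _
      simp
    | insert f G' hfG' ih =>
      intro hsub
      have hfG : f ∈ G := hsub (Finset.mem_insert_self _ _)
      obtain ⟨ih1, ih2⟩ := ih ((Finset.subset_insert _ _).trans hsub)
      rw [Finset.biUnion_insert, Finset.biUnion_insert]
      set S := R ∪ G'.biUnion (fun f => B.image f) with hS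
      set Xo := G'.biUnion (fun f => imgE P f B) with hXo
      have hSS : R ∪ (B.image f ∪ G'.biUnion (fun f => B.image f)) = S ∪ B.image f := by
        rw [hS]
        ext v
        simp only [Finset.mem_union]
        tauto
      rw [hSS]
      constructor
      · intro e he v hv
        rcases Finset.mem_union.mp he with he | he
        · obtain ⟨e₀, he₀, rfl⟩ := Finset.mem_image.mp he
          obtain ⟨u, hu, rfl⟩ := Sym2.mem_map.mp hv
          rcases mem_tE.mp he₀ with ⟨h2, _⟩
          have hucase : u ∈ B ∨ u ∈ K := by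
            induction e₀ using Sym2.ind with
            | _ a b =>
              have hab : P.Adj a b := h2
              rcases Sym2.mem_iff.mp hu with rfl | rfl
              · exact endpoint_mem hb hab
              · exact endpoint_mem hb hab.symm
          rcases hucase with h3 | h3
          · exact Finset.mem_union_right _ (Finset.mem_image_of_mem _ h3)
          · refine Finset.mem_union_left _ (Finset.mem_union_left _ ?_)
            rw [hag f hfG f₀ hf₀ u (Finset.mem_insert_of_mem h3)]
            exact Finset.mem_image_of_mem _ (Finset.mem_insert_of_mem h3)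
        · exact Finset.mem_union_left _ (ih1 e he v hv)
      · -- the inequality
        set W := B.filter (fun z => f z ∉ S) with hW
        have hWsub : W ⊆ B := Finset.filter_subset _ _
        have hfinj := hinj f hfG
        have hxW : x ∉ W := by
          intro h
          have h1 := (Finset.mem_filter.mp h).2
          apply h1
          refine Finset.mem_union_left _ ?_
          rw [hag f hfG f₀ hf₀ x (Finset.mem_insert_self _ _)]
          exact Finset.mem_image_of_mem _ (Finset.mem_insert_self _ _)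
        have hSnew : S ∪ B.image f = S ∪ W.image f := by
          ext v
          simp only [Finset.mem_union, Finset.mem_image]
          constructor
          · rintro (h | ⟨z, hz, rfl⟩)
            · exact Or.inl h
            · by_cases h : f z ∈ S
              · exact Or.inl h
              · exact Or.inr ⟨z, Finset.mem_filter.mpr ⟨hz, h⟩, rfl⟩
          · rintro (h | ⟨z, hz, rfl⟩)
            · exact Or.inl h
            · exact Or.inr ⟨z, hWsub hz, rfl⟩
        have hdisjS : Disjoint S (W.image f) := by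
          rw [Finset.disjoint_left]
          intro v hv hv'
          obtain ⟨z, hz, rfl⟩ := Finset.mem_image.mp hv'
          exact (Finset.mem_filter.mp hz).2 hv
        have hScard : (S ∪ B.image f).card = S.card + W.card := by
          rw [hSnew, Finset.card_union_of_disjoint hdisjS, Finset.card_image_of_injective _ hfinj]
        have hdisjX : Disjoint (imgE P f W) Xo := by
          rw [Finset.disjoint_left]
          intro e he he'
          obtain ⟨e₀, he₀, rfl⟩ := Finset.mem_image.mp he
          rcases mem_tE.mp he₀ with ⟨_, z, hz, hze⟩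
          have h1 := ih1 _ he' (f z) (Sym2.mem_map.mpr ⟨z, hze, rfl⟩)
          exact (Finset.mem_filter.mp hz).2 h1
        have hsubX : imgE P f W ∪ Xo ⊆ imgE P f B ∪ Xo := by
          refine Finset.union_subset_union ?_ (Finset.Subset.refl _)
          exact Finset.image_subset_image (tE_mono P hWsub)
        have hXcard : Xo.card + (tE P W).card ≤ (imgE P f B ∪ Xo).card := by
          have h1 := Finset.card_le_card hsubX
          rw [Finset.card_union_of_disjoint hdisjX, card_imgE P hfinj] at h1
          omega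
        have hpow : p₁ ^ (imgE P f B ∪ Xo).card ≤ p₁ ^ (Xo.card + (tE P W).card) :=
          pow_le_pow_of_le_one hp0.le hp hXcard
        have hfactor : (n : ℝ) ^ W.card * p₁ ^ (tE P W).card ≤ 1 := by
          rcases Finset.eq_empty_or_nonempty W with h0 | hWne
          · rw [h0, tE_empty]
            simp
          · refine (hb.P1 W hWsub hWne ?_).le
            intro h
            rw [h] at hxW
            exact hxW hx
        rw [hScard]
        calc (n : ℝ) ^ (S.card + W.card) * p₁ ^ (imgE P f B ∪ Xo).card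
            ≤ (n : ℝ) ^ (S.card + W.card) * p₁ ^ (Xo.card + (tE P W).card) :=
              mul_le_mul_of_nonneg_left hpow (by positivity)
          _ = ((n : ℝ) ^ S.card * p₁ ^ Xo.card) * ((n : ℝ) ^ W.card * p₁ ^ (tE P W).card) := by
              rw [pow_add, pow_add]; ring
          _ ≤ ((n : ℝ) ^ S.card * p₁ ^ Xo.card) * 1 :=
              mul_le_mul_of_nonneg_left hfactor (by positivity)
          _ ≤ (n : ℝ) ^ R.card := by rw [mul_one]; exact ih2
  obtain ⟨h1, h2⟩ := key G (Finset.Subset.refl _)
  set S := R ∪ G.biUnion (fun f => B.image f) with hS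
  set X := G.biUnion (fun f => imgE P f B) with hX
  have h3 := weak_hyp hq (q_le_one hq hp) hyp S X (by
    intro e he
    obtain ⟨f, hf, hfe⟩ := Finset.mem_biUnion.mp he
    exact imgE_edge (hadj f hf) hfe) h1
  have hE0 : 0 < Real.exp 1 ^ X.card := by positivity
  have h4 : (n : ℝ) ^ S.card * p₁ ^ X.card = Real.exp 1 ^ X.card * ((n : ℝ) ^ S.card * q ^ X.card) := by
    rw [hp₁, mul_pow]; ring
  rw [h4] at h2
  calc Real.exp 1 ^ X.card = Real.exp 1 ^ X.card * 1 := (mul_one _).symm
    _ ≤ Real.exp 1 ^ X.card * ((n : ℝ) ^ S.card * q ^ X.card) :=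
        mul_le_mul_of_nonneg_left h3 hE0.le
    _ ≤ (n : ℝ) ^ R.card := h2
    _ ≤ (n : ℝ) ^ (K.card + 1) := pow_le_pow_right₀ hn' hRcard

end

/-- The degrees sum to at most twice the number of edges. -/
lemma sum_degX_le (X : Finset (Sym2 V)) (R : Finset Z) {f : Z → V} (hf : Function.Injective f) :
    ∑ r ∈ R, degX X (f r) ≤ 2 * X.card := by
  have h1 : ∑ r ∈ R, degX X (f r) = ∑ v ∈ R.image f, degX X v :=
    (Finset.sum_image (fun a _ b _ h => hf h)).symm
  rw [h1]
  have h2 : ∑ v ∈ R.image f, degX X v ≤ ∑ v : V, degX X v :=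
    Finset.sum_le_sum_of_subset (Finset.subset_univ _)
  refine h2.trans ?_
  have h3 : ∀ v : V, degX X v = ∑ e ∈ X, if v ∈ e then 1 else 0 := by
    intro v
    unfold degX
    rw [Finset.card_filter]
  simp only [h3]
  rw [Finset.sum_comm]
  have h4 : ∀ e ∈ X, (∑ v : V, if v ∈ e then 1 else 0) ≤ 2 := by
    intro e _
    induction e using Sym2.ind with
    | _ a b =>
      have h5 : (∑ v : V, if v ∈ s(a, b) then 1 else 0)
          = ((Finset.univ : Finset V).filter (fun v => v ∈ s(a, b))).card := by
        rw [Finset.card_filter]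
      rw [h5]
      have h6 : (Finset.univ : Finset V).filter (fun v => v ∈ s(a, b)) ⊆ {a, b} := by
        intro v hv
        rcases Sym2.mem_iff.mp (Finset.mem_filter.mp hv).2 with rfl | rfl <;> simp
      exact (Finset.card_le_card h6).trans Finset.card_le_two
  calc ∑ e ∈ X, ∑ v : V, (if v ∈ e then 1 else 0) ≤ ∑ _e ∈ X, 2 := Finset.sum_le_sum h4
    _ = 2 * X.card := by rw [Finset.sum_const, smul_eq_mul, mul_comm]

lemma degX_le_card (X : Finset (Sym2 V)) (v : V) : degX X v ≤ X.card :=
  Finset.card_filter_le _ _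

/-- The degree in a set of edges of `H` is at most the degree in `H`. -/
lemma degX_le_nbr {H : SimpleGraph V} {X : Finset (Sym2 V)} (hX : ∀ e ∈ X, e ∈ H.edgeSet) (v : V) :
    degX X v ≤ ((Finset.univ : Finset V).filter (fun w => H.Adj v w)).card := by
  unfold degX
  have h1 : X.filter (fun e => v ∈ e) ⊆
      ((Finset.univ : Finset V).filter (fun w => H.Adj v w)).image (fun w => s(v, w)) := by
    intro e he
    rcases Finset.mem_filter.mp he with ⟨h2, ⟨w, rfl⟩⟩
    exact Finset.mem_image.mpr ⟨w, Finset.mem_filter.mpr ⟨Finset.mem_univ _, hX _ h2⟩, rfl⟩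
  exact (Finset.card_le_card h1).trans Finset.card_image_le

/-- In the sparse regime degrees are small. -/
theorem degree_le {H : SimpleGraph V} {n : ℕ} {q M : ℝ} (hn : 1 ≤ n) (hq : 0 < q)
    (hp : Real.exp 1 * q ≤ 1) (hyp : ∀ F : H.Subgraph, 1 ≤ expCopies n q F.coe)
    (hs : Real.exp 1 * (n * q) ≤ 1) (hM : 1 ≤ M) (hlog : Real.log n ≤ M) (v : V) :
    (((Finset.univ : Finset V).filter (fun w => H.Adj v w)).card : ℝ) ≤ 2 * M := by
  have hn' : (1 : ℝ) ≤ n := by exact_mod_cast hn
  have hn0 : (0 : ℝ) < n := by linarith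
  set N := (Finset.univ : Finset V).filter (fun w => H.Adj v w) with hN
  set t := N.card with ht
  let P' : SimpleGraph Bool := ⊤
  let B' : Finset Bool := {true}
  let fam : N → Bool → V := fun w b => if b then w.1 else v
  have hadjN : ∀ w : N, H.Adj v w.1 := fun w => (Finset.mem_filter.mp w.2).2
  have hKcard : (Kof P' B').card ≤ 1 := by
    have h1 : Kof P' B' ⊆ {false} := by
      intro u hu
      rcases mem_Kof.mp hu with ⟨h2, _⟩
      cases u
      · simp
      · simp [B'] at h2
    exact (Finset.card_le_card h1).trans (by simp)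
  have htE : 1 ≤ (tE P' B').card := by
    have h1 : s(true, false) ∈ tE P' B' := by
      refine mem_tE.mpr ⟨?_, true, by simp [B'], Sym2.mem_mk_left _ _⟩
      show (⊤ : SimpleGraph Bool).Adj true false
      simp
    exact Finset.card_pos.mpr ⟨_, h1⟩
  have h1 := petal_bound (ι := N) (P := P') (B := B') (fam := fam) (H := H) hn hq (q_le_one hq hp) hyp
    ⟨true, by simp [B']⟩
    (by
      intro u w h
      have h2 : u ≠ w := h
      cases u <;> cases w <;> simp_all [B'])
    (by
      intro i a b hab
      cases a <;> cases b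
      · rfl
      · exact absurd hab (hadjN i).ne
      · exact absurd hab (hadjN i).ne'
      · rfl)
    (by
      intro i u w h
      have h2 : u ≠ w := h
      cases u <;> cases w
      · exact absurd rfl h2
      · exact hadjN i
      · exact (hadjN i).symm
      · exact absurd rfl h2)
    (by
      intro i i' k hk
      rcases mem_Kof.mp hk with ⟨h2, _⟩
      cases k
      · rfl
      · simp [B'] at h2)
    (by
      intro i i' hii z hz z' hz'
      have h2 : z = true := by simpa [B'] using hz
      have h3 : z' = true := by simpa [B'] using hz'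
      subst h2
      subst h3
      intro h4
      exact hii (Subtype.ext h4))
  have hFc : Fintype.card N = t := Fintype.card_coe N
  rw [hFc] at h1
  have hB'c : B'.card = 1 := by simp [B']
  rw [hB'c, pow_one] at h1
  have hq1 := q_le_one hq hp
  have h2 : (n : ℝ) ^ (Kof P' B').card ≤ n := by
    calc (n : ℝ) ^ (Kof P' B').card ≤ (n : ℝ) ^ 1 := pow_le_pow_right₀ hn' hKcard
      _ = n := pow_one _
  have h3 : q ^ (tE P' B').card ≤ q := by
    calc q ^ (tE P' B').card ≤ q ^ 1 := pow_le_pow_of_le_one hq.le hq1 htE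
      _ = q := pow_one _
  have h4 : ((t ! : ℕ) : ℝ) ≤ n * ((n : ℝ) * q) ^ t := by
    refine h1.trans ?_
    refine mul_le_mul h2 ?_ (by positivity) (by positivity)
    exact pow_le_pow_left₀ (by positivity) (mul_le_mul_of_nonneg_left h3 hn0.le) t
  -- numerics
  have hE : Real.exp 1 ^ t * ((n : ℝ) * q) ^ t ≤ 1 := by
    rw [← mul_pow]
    exact pow_le_one₀ (by positivity) hs
  have hexpt : Real.exp t = Real.exp 1 ^ t := by
    rw [← Real.exp_nat_mul]; simp
  have h5 : (t : ℝ) ^ t / ((t ! : ℕ) : ℝ) ≤ Real.exp t := Real.pow_div_factorial_le_exp _ (by positivity) t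
  have hfac : (0 : ℝ) < ((t ! : ℕ) : ℝ) := by exact_mod_cast Nat.factorial_pos t
  have h6 : (t : ℝ) ^ t ≤ Real.exp t * ((t ! : ℕ) : ℝ) := (div_le_iff₀ hfac).mp h5
  have h7 : (t : ℝ) ^ t ≤ n := by
    calc (t : ℝ) ^ t ≤ Real.exp t * ((t ! : ℕ) : ℝ) := h6
      _ ≤ Real.exp 1 ^ t * (n * ((n : ℝ) * q) ^ t) := by
          rw [hexpt]
          exact mul_le_mul_of_nonneg_left h4 (by positivity)
      _ = n * (Real.exp 1 ^ t * ((n : ℝ) * q) ^ t) := by ring
      _ ≤ n * 1 := mul_le_mul_of_nonneg_left hE hn0.le
      _ = n := mul_one _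
  by_cases ht3 : t ≤ 2
  · have : (t : ℝ) ≤ 2 := by exact_mod_cast ht3
    linarith
  · push Not at ht3
    have h3t : (3 : ℝ) ≤ t := by exact_mod_cast ht3
    have h8 : Real.exp t ≤ n := by
      rw [hexpt]
      calc Real.exp 1 ^ t ≤ (t : ℝ) ^ t :=
            pow_le_pow_left₀ (Real.exp_pos 1).le (by linarith [Real.exp_one_lt_three]) t
        _ ≤ n := h7
    have h9 : (t : ℝ) ≤ Real.log n := (Real.le_log_iff_exp_le hn0).mpr h8
    linarith

end Vale.Agent.Lib.P064h
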