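import Vale.Agent.Lib.P064h.Block1

/-!
Counting the copies of a block through a fixed vertex.
-/

namespace Vale.Agent.Lib.P064h

open Finset SimpleGraph Vale.Agent.Lib.P064
open scoped Classical Nat

set_option linter.unusedSectionVars false
set_option linter.unusedVariables false

variable {V : Type*} [Fintype V] {Z : Type*} [Fintype Z]

section
variable {P : SimpleGraph Z} {B : Finset Z} {n : ℕ} {p₁ : ℝ}

/-- A block is connected. -/
theorem reach_in (hb : BlockP P B n p₁) (hn : 1 ≤ n) (hp0 : 0 < p₁) (hp : p₁ ≤ 1) {x : Z} (hx : x ∈ B)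
    {S : Finset Z} (hS : S ⊆ B.erase x) (hSne : S.Nonempty) :
    ∃ p ∈ B \ S, ∃ z ∈ S, P.Adj p z := by
  by_contra hcon
  push Not at hcon
  have hSB : S ⊆ B := hS.trans (Finset.erase_subset _ _)
  have hxS : x ∉ S := fun h => (Finset.mem_erase.mp (hS h)).1 rfl
  have hS1 : S ≠ B := fun h => hxS (h ▸ hx)
  set S' := B \ S with hS'
  have hS'sub : S' ⊆ B := Finset.sdiff_subset
  have hS'ne : S'.Nonempty := ⟨x, Finset.mem_sdiff.mpr ⟨hx, hxS⟩⟩
  have hS'1 : S' ≠ B := by
    obtain ⟨z, hz⟩ := hSne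
    intro h
    have : z ∈ S' := h ▸ hSB hz
    exact (Finset.mem_sdiff.mp this).2 hz
  have h1 := hb.P1 S hSB hSne hS1
  have h2 := hb.P1 S' hS'sub hS'ne hS'1
  have hdisj : Disjoint (tE P S) (tE P S') := by
    rw [Finset.disjoint_left]
    intro e he he'
    rcases mem_tE.mp he with ⟨h3, a, ha, hae⟩
    rcases mem_tE.mp he' with ⟨_, c, hc, hce⟩
    have hac : a ≠ c := by
      rintro rfl
      exact (Finset.mem_sdiff.mp hc).2 ha
    induction e using Sym2.ind with
    | _ u w =>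
      have huw : P.Adj u w := h3
      rcases Sym2.mem_iff.mp hae with rfl | rfl <;> rcases Sym2.mem_iff.mp hce with rfl | rfl
      · exact hac rfl
      · exact hcon c hc a ha huw.symm
      · exact hcon c hc a ha huw
      · exact hac rfl
  have hsub : tE P S ∪ tE P S' ⊆ tE P B :=
    Finset.union_subset (tE_mono P hSB) (tE_mono P hS'sub)
  have hcard : (tE P S).card + (tE P S').card ≤ (tE P B).card := by
    have := Finset.card_le_card hsub
    rwa [Finset.card_union_of_disjoint hdisj] at this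
  have hB : S.card + S'.card = B.card := by
    have := Finset.card_sdiff_add_card_eq_card hSB
    rw [← hS'] at this
    omega
  have h3 := hb.P2
  have h4 : p₁ ^ (tE P B).card ≤ p₁ ^ ((tE P S).card + (tE P S').card) :=
    pow_le_pow_of_le_one hp0.le hp hcard
  have hn0 : (0 : ℝ) ≤ n := Nat.cast_nonneg n
  have h5 : (n : ℝ) ^ B.card * p₁ ^ (tE P B).card
      ≤ ((n : ℝ) ^ S.card * p₁ ^ (tE P S).card) * ((n : ℝ) ^ S'.card * p₁ ^ (tE P S').card) := by
    calc (n : ℝ) ^ B.card * p₁ ^ (tE P B).card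
        ≤ (n : ℝ) ^ B.card * p₁ ^ ((tE P S).card + (tE P S').card) :=
          mul_le_mul_of_nonneg_left h4 (by positivity)
      _ = _ := by
          rw [← hB, pow_add, pow_add]; ring
  have h6 : ((n : ℝ) ^ S.card * p₁ ^ (tE P S).card) * ((n : ℝ) ^ S'.card * p₁ ^ (tE P S').card) < 1 := by
    have h7 : 0 ≤ (n : ℝ) ^ S'.card * p₁ ^ (tE P S').card := by positivity
    nlinarith
  linarith

/-- The count of edges of a block. -/
theorem span_count (hb : BlockP P B n p₁) (hn : 1 ≤ n) (hp0 : 0 < p₁) (hp : p₁ ≤ 1) {x : Z} (hx : x ∈ B) :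
    (B.erase x).card + (Kof P B).card ≤ (tE P B).card := by
  let Pin : SimpleGraph Z :=
    { Adj := fun u w => P.Adj u w ∧ u ∈ B ∧ w ∈ B
      symm := ⟨fun u w h => ⟨h.1.symm, h.2.2, h.2.1⟩⟩
      loopless := ⟨fun u h => P.loopless.irrefl u h.1⟩ }
  have hPin : ∀ u w, Pin.Adj u w ↔ P.Adj u w ∧ u ∈ B ∧ w ∈ B := fun _ _ => Iff.rfl
  set Y := B.erase x with hY
  have hdisj : Disjoint ({x} : Finset Z) Y := by
    rw [Finset.disjoint_singleton_left]
    exact Finset.notMem_erase _ _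
  have hTU : ({x} : Finset Z) ∪ Y = B := by
    ext t
    simp only [Finset.mem_union, Finset.mem_singleton, hY, Finset.mem_erase]
    constructor
    · rintro (rfl | ⟨_, h⟩)
      · exact hx
      · exact h
    · intro h
      by_cases h1 : t = x
      · exact Or.inl h1
      · exact Or.inr ⟨h1, h⟩
  obtain ⟨f, hf, tm, δ, par, h, _⟩ := prim_heavy (V := Z) Pin (Finset.univ : Finset (Sym2 Z)) Y.card
    {x} Y rfl hdisj
    (by
      intro S hS hSne
      obtain ⟨p, hp1, z, hz, hpz⟩ := reach_in hb hn hp0 hp hx hS hSne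
      rcases Finset.mem_sdiff.mp hp1 with ⟨h1, h2⟩
      refine ⟨p, Finset.mem_sdiff.mpr ⟨by rw [hTU]; exact h1, h2⟩, z, hz, hpz, h1, ?_⟩
      exact (Finset.mem_erase.mp (hS hz)).2)
    {id} (by simp)
    (by
      intro a ha b hb' t _
      rw [Finset.mem_singleton.mp ha, Finset.mem_singleton.mp hb'])
    (by
      intro a ha b hb' _
      rw [Finset.mem_singleton.mp ha, Finset.mem_singleton.mp hb'])
    (fun _ _ _ _ _ => Finset.mem_univ _)
  -- tree edges
  have hparB : ∀ z ∈ Y, par z ∈ B := fun z hz => (h.par_adj z hz).2.1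
  have hzB : ∀ z ∈ Y, z ∈ B := fun z hz => (Finset.mem_erase.mp hz).2
  set tr : Z → Sym2 Z := fun z => s(z, par z) with htr
  have htrinj : Set.InjOn tr (Y : Set Z) := by
    intro a ha c hc hac
    exact tree_edge_inj h hdisj ha hc hac
  -- edges at attachments
  have hK : ∀ k ∈ Kof P B, ∃ z ∈ B, P.Adj k z := fun k hk => (mem_Kof.mp hk).2
  choose! zz hzz1 hzz2 using hK
  set ke : Z → Sym2 Z := fun k => s(k, zz k) with hke
  have hkeinj : Set.InjOn ke (Kof P B : Set Z) := by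
    intro a ha c hc hac
    rcases Sym2.eq_iff.mp hac with ⟨h1, _⟩ | ⟨h1, _⟩
    · exact h1
    · exfalso
      exact (mem_Kof.mp ha).1 (h1 ▸ hzz1 c hc)
  have hdisj2 : Disjoint (Y.image tr) ((Kof P B).image ke) := by
    rw [Finset.disjoint_left]
    intro e he he'
    obtain ⟨z, hz, rfl⟩ := Finset.mem_image.mp he
    obtain ⟨k, hk, hke'⟩ := Finset.mem_image.mp he'
    rcases Sym2.eq_iff.mp hke' with ⟨h1, _⟩ | ⟨h1, _⟩
    · exact (mem_Kof.mp hk).1 (h1 ▸ hzB z hz)
    · exact (mem_Kof.mp hk).1 (h1 ▸ hparB z hz)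
  have hsub : Y.image tr ∪ (Kof P B).image ke ⊆ tE P B := by
    intro e he
    rcases Finset.mem_union.mp he with he | he
    · obtain ⟨z, hz, rfl⟩ := Finset.mem_image.mp he
      exact mem_tE.mpr ⟨(h.par_adj z hz).1.symm, z, hzB z hz, Sym2.mem_mk_left _ _⟩
    · obtain ⟨k, hk, rfl⟩ := Finset.mem_image.mp he
      exact mem_tE.mpr ⟨hzz2 k hk, zz k, hzz1 k hk, Sym2.mem_mk_right _ _⟩
  have := Finset.card_le_card hsub
  rwa [Finset.card_union_of_disjoint hdisj2, Finset.card_image_of_injOn htrinj,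
    Finset.card_image_of_injOn hkeinj] at this

/-- In the dense regime all vertices of a block of size at least two have degree at least two. -/
theorem deg_two (hb : BlockP P B n p₁) (hp0 : 0 < p₁) (hp : p₁ ≤ 1) (hd : 1 ≤ (n : ℝ) * p₁)
    (hB2 : 2 ≤ B.card) {z : Z} (hz : z ∈ B) (a : Z) : ∃ w, w ≠ a ∧ P.Adj z w := by
  have hW : ({z} : Finset Z) ≠ B := by
    intro h
    rw [← h] at hB2
    simp at hB2
  have h1 := hb.P1 {z} (Finset.singleton_subset_iff.mpr hz) (Finset.singleton_nonempty z) hW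
  rw [Finset.card_singleton, pow_one] at h1
  have h2 : 1 < (tE P {z}).card := by
    by_contra hc
    push Not at hc
    have h3 : p₁ ≤ p₁ ^ (tE P {z}).card := by
      calc p₁ = p₁ ^ 1 := (pow_one _).symm
        _ ≤ p₁ ^ (tE P {z}).card := pow_le_pow_of_le_one hp0.le hp hc
    have h4 : (n : ℝ) * p₁ ≤ (n : ℝ) * p₁ ^ (tE P {z}).card :=
      mul_le_mul_of_nonneg_left h3 (Nat.cast_nonneg n)
    linarith
  obtain ⟨e₁, he₁, e₂, he₂, hne⟩ := Finset.one_lt_card.mp h2
  have hform : ∀ e ∈ tE P {z}, ∃ w, e = s(z, w) ∧ P.Adj z w := by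
    intro e he
    rcases mem_tE.mp he with ⟨h3, v, hv, hve⟩
    rw [Finset.mem_singleton.mp hv] at hve
    obtain ⟨w, rfl⟩ := hve
    exact ⟨w, rfl, h3⟩
  obtain ⟨w₁, rfl, h3⟩ := hform e₁ he₁
  obtain ⟨w₂, rfl, h4⟩ := hform e₂ he₂
  by_cases h5 : w₁ = a
  · refine ⟨w₂, ?_, h4⟩
    rintro rfl
    exact hne (by rw [h5])
  · exact ⟨w₁, h5, h3⟩

end

section
variable {P : SimpleGraph Z} {T₀ Y : Finset Z} {dg tm δ : Z → ℕ} {par : Z → Z}

/-- One edge more than a spanning tree. -/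
theorem extra_tree (h : PrimOrder P T₀ Y dg tm δ par) (hdisj : Disjoint T₀ Y)
    (hdeg2 : ∀ z ∈ Y, ∃ w, w ≠ par z ∧ P.Adj z w) (hY : Y.Nonempty) :
    Y.card + 1 ≤ (tE P Y).card := by
  obtain ⟨a, ha, hmax⟩ := Finset.exists_max_image Y tm hY
  obtain ⟨b, hb1, hb2⟩ := hdeg2 a ha
  set tr : Z → Sym2 Z := fun z => s(z, par z) with htr
  have htrinj : Set.InjOn tr (Y : Set Z) := by
    intro x hx y hy hxy
    exact tree_edge_inj h hdisj hx hy hxy
  have hnot : s(a, b) ∉ Y.image tr := by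
    intro he
    obtain ⟨u, hu, hue⟩ := Finset.mem_image.mp he
    rcases Sym2.eq_iff.mp hue with ⟨h1, h2⟩ | ⟨h1, h2⟩
    · rw [h1] at h2
      exact hb1 h2.symm
    · -- `u = b`, `par u = a`
      have h3 := hmax u hu
      rcases h.par_mem u hu with h4 | ⟨_, h4⟩
      · rw [h2] at h4
        exact (Finset.disjoint_left.mp hdisj h4) ha
      · rw [h2] at h4
        omega
  have hsub : insert s(a, b) (Y.image tr) ⊆ tE P Y := by
    intro e he
    rcases Finset.mem_insert.mp he with rfl | he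
    · exact mem_tE.mpr ⟨hb2, a, ha, Sym2.mem_mk_left _ _⟩
    · obtain ⟨u, hu, rfl⟩ := Finset.mem_image.mp he
      exact mem_tE.mpr ⟨(h.par_adj u hu).symm, u, hu, Sym2.mem_mk_left _ _⟩
  have := Finset.card_le_card hsub
  rwa [Finset.card_insert_of_notMem hnot, Finset.card_image_of_injOn htrinj] at this

end

section
variable {P : SimpleGraph Z} {B : Finset Z} {n : ℕ} {q : ℝ} {H : SimpleGraph V}

/-- The setup of the greedy exploration of a block from a vertex `x`. -/
lemma explore (hb : BlockP P B n (Real.exp 1 * q)) (hn : 1 ≤ n) (hq : 0 < q) (hp : Real.exp 1 * q ≤ 1)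
    {x : Z} (hx : x ∈ B) (G : Finset (Z → V)) (hG : G.Nonempty)
    (hag : ∀ f ∈ G, ∀ f' ∈ G, ∀ k ∈ insert x (Kof P B), f k = f' k)
    (hdist : ∀ f ∈ G, ∀ f' ∈ G, (∀ z ∈ B, f z = f' z) → f = f') :
    ∃ f ∈ G, ∃ (tm δ : Z → ℕ) (par : Z → Z),
      PrimOrder P (insert x (Kof P B)) (B.erase x)
        (fun r => degX (G.biUnion (fun f => imgE P f B)) (f r)) tm δ par ∧
      G.card ≤ ∏ z ∈ B.erase x, δ z := by
  have hp0 : 0 < Real.exp 1 * q := by positivity
  have hKB : ∀ k ∈ Kof P B, k ∉ B := fun k hk => (mem_Kof.mp hk).1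
  have hdisj : Disjoint (insert x (Kof P B)) (B.erase x) := by
    rw [Finset.disjoint_left]
    intro t ht ht'
    rcases Finset.mem_insert.mp ht with rfl | h
    · exact (Finset.mem_erase.mp ht').1 rfl
    · exact hKB t h (Finset.mem_erase.mp ht').2
  refine prim_heavy P _ _ _ _ rfl hdisj ?_ G hG hag ?_ ?_
  · intro S hS hSne
    obtain ⟨p, hp1, z, hz, hpz⟩ := reach_in hb hn hp0 hp hx hS hSne
    rcases Finset.mem_sdiff.mp hp1 with ⟨h1, h2⟩
    refine ⟨p, Finset.mem_sdiff.mpr ⟨?_, h2⟩, z, hz, hpz⟩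
    by_cases h3 : p = x
    · rw [h3]
      exact Finset.mem_union_left _ (Finset.mem_insert_self _ _)
    · exact Finset.mem_union_right _ (Finset.mem_erase.mpr ⟨h3, h1⟩)
  · intro f hf f' hf' h1
    refine hdist f hf f' hf' fun z hz => h1 z ?_
    by_cases h3 : z = x
    · rw [h3]
      exact Finset.mem_union_left _ (Finset.mem_insert_self _ _)
    · exact Finset.mem_union_right _ (Finset.mem_erase.mpr ⟨h3, hz⟩)
  · intro f hf u w huw
    refine Finset.mem_biUnion.mpr ⟨f, hf, Finset.mem_image.mpr ⟨s(u, w), ?_, rfl⟩⟩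
    rcases hb.touch u w huw with h1 | h1
    · exact mem_tE.mpr ⟨huw, u, h1, Sym2.mem_mk_left _ _⟩
    · exact mem_tE.mpr ⟨huw, w, h1, Sym2.mem_mk_right _ _⟩

/-- The count of copies through a vertex in the sparse regime. -/
theorem local_sparse (hn : 1 ≤ n) (hq : 0 < q) (hp : Real.exp 1 * q ≤ 1)
    (hyp : ∀ F : H.Subgraph, 1 ≤ expCopies n q F.coe) (hb : BlockP P B n (Real.exp 1 * q))
    (hs : Real.exp 1 * (n * q) ≤ 1) {M : ℝ} (hM : 1 ≤ M) (hlog : Real.log n ≤ M)
    {x : Z} (hx : x ∈ B) (G : Finset (Z → V))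
    (hadj : ∀ f ∈ G, ∀ u w, P.Adj u w → H.Adj (f u) (f w))
    (hag : ∀ f ∈ G, ∀ f' ∈ G, ∀ k ∈ insert x (Kof P B), f k = f' k)
    (hdist : ∀ f ∈ G, ∀ f' ∈ G, (∀ z ∈ B, f z = f' z) → f = f') :
    (G.card : ℝ) ≤ (2 * M) ^ (B.card - 1) := by
  have hM2 : 0 < 2 * M := by linarith
  rcases Finset.eq_empty_or_nonempty G with rfl | hG
  · simp only [Finset.card_empty, Nat.cast_zero]
    positivity
  obtain ⟨f, hf, tm, δ, par, h, hprod⟩ := explore hb hn hq hp hx G hG hag hdist
  set X := G.biUnion (fun f => imgE P f B) with hX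
  have hXH : ∀ e ∈ X, e ∈ H.edgeSet := by
    intro e he
    obtain ⟨f', hf', hfe⟩ := Finset.mem_biUnion.mp he
    exact imgE_edge (hadj f' hf') hfe
  have hcast : (G.card : ℝ) ≤ ∏ z ∈ B.erase x, (δ z : ℝ) := by exact_mod_cast hprod
  refine hcast.trans ?_
  have hc : (B.erase x).card = B.card - 1 := Finset.card_erase_of_mem hx
  rw [← hc, ← Finset.prod_const]
  refine Finset.prod_le_prod (fun _ _ => Nat.cast_nonneg _) fun z hz => ?_
  rw [h.delta z hz]
  have h1 := degX_le_nbr hXH (f (par z))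
  have h2 := degree_le hn hq hp hyp hs hM hlog (f (par z))
  have h3 : ((degX X (f (par z)) : ℕ) : ℝ) ≤
      (((Finset.univ : Finset V).filter (fun w => H.Adj (f (par z)) w)).card : ℝ) := by
    exact_mod_cast h1
  linarith

/-- The count of copies through a vertex in the dense regime. -/
theorem local_dense (hn : 1 ≤ n) (hq : 0 < q) (hp : Real.exp 1 * q ≤ 1)
    (hyp : ∀ F : H.Subgraph, 1 ≤ expCopies n q F.coe) (hb : BlockP P B n (Real.exp 1 * q))
    (hd : 1 ≤ (n : ℝ) * (Real.exp 1 * q)) (hB2 : 2 ≤ B.card) {M : ℝ} (hM : 1 ≤ M)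
    (hlog : Real.log n ≤ M) {x : Z} (hx : x ∈ B) (G : Finset (Z → V))
    (hinj : ∀ f ∈ G, Function.Injective f)
    (hadj : ∀ f ∈ G, ∀ u w, P.Adj u w → H.Adj (f u) (f w))
    (hag : ∀ f ∈ G, ∀ f' ∈ G, ∀ k ∈ insert x (Kof P B), f k = f' k)
    (hdist : ∀ f ∈ G, ∀ f' ∈ G, (∀ z ∈ B, f z = f' z) → f = f') :
    (G.card : ℝ) ≤ Real.exp (16 * ((tE P B).card - (B.card - 1) : ℕ)) * M ^ ((tE P B).card - 1) := by
  have hn' : (1 : ℝ) ≤ n := by exact_mod_cast hn
  have hn0 : (0 : ℝ) < n := by linarith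
  have hM0 : 0 < M := by linarith
  have hp0 : 0 < Real.exp 1 * q := by positivity
  rcases Finset.eq_empty_or_nonempty G with rfl | hG
  · simp only [Finset.card_empty, Nat.cast_zero]
    positivity
  obtain ⟨f, hf, tm, δ, par, h, hprod⟩ := explore hb hn hq hp hx G hG hag hdist
  set X := G.biUnion (fun f => imgE P f B) with hX
  set K := Kof P B with hK
  set T₀ := insert x K with hT₀
  set Y := B.erase x with hY
  set dg : Z → ℕ := fun r => degX X (f r) with hdg
  have hYcard : Y.card = B.card - 1 := Finset.card_erase_of_mem hx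
  have hYB : Y ⊆ B := Finset.erase_subset _ _
  have hKB : ∀ k ∈ K, k ∉ B := fun k hk => (mem_Kof.mp hk).1
  have hdisj : Disjoint T₀ Y := by
    rw [Finset.disjoint_left]
    intro t ht ht'
    rcases Finset.mem_insert.mp ht with rfl | h'
    · exact (Finset.mem_erase.mp ht').1 rfl
    · exact hKB t h' (Finset.mem_erase.mp ht').2
  have hdeg2 : ∀ z ∈ Y, ∃ w, w ≠ par z ∧ P.Adj z w := fun z hz =>
    deg_two hb hp0 hp hd hB2 (hYB hz) (par z)
  have hall : ∀ z ∈ Y, ∀ w, P.Adj z w → w ∈ T₀ ∪ Y := by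
    intro z _ w hzw
    rcases endpoint_mem hb hzw.symm with h1 | h1
    · by_cases h3 : w = x
      · rw [h3]
        exact Finset.mem_union_left _ (Finset.mem_insert_self _ _)
      · exact Finset.mem_union_right _ (Finset.mem_erase.mpr ⟨h3, h1⟩)
    · exact Finset.mem_union_left _ (Finset.mem_insert_of_mem h1)
  have hYne : Y.Nonempty := by
    rw [← Finset.card_pos, hYcard]
    omega
  set b := (tE P B).card with hbdef
  have hspan : Y.card + K.card ≤ b := span_count hb hn hp0 hp hx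
  have hextra : Y.card + 1 ≤ b :=
    (extra_tree h hdisj hdeg2 hYne).trans (Finset.card_le_card (tE_mono P hYB))
  set y := Y.card with hy
  set xt := b - y with hxt
  have hbxy : xt + y = b := by omega
  have hxt1 : 1 ≤ xt := by omega
  have hxtK : K.card ≤ xt := by omega
  -- the number of edges of the union
  set E := X.card with hE
  have hEbudget : (E : ℝ) ≤ 2 * xt * M := by
    have h1 := union_budget hn hq hp hyp hb hx G hinj hadj hag
    have h2 : Real.exp (E : ℝ) = Real.exp 1 ^ E := by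
      rw [← Real.exp_nat_mul]; simp
    have h3 : (n : ℝ) ^ (K.card + 1) = Real.exp (((K.card + 1 : ℕ) : ℝ) * Real.log n) := by
      rw [Real.exp_nat_mul, Real.exp_log hn0]
    rw [← h2, h3, Real.exp_le_exp] at h1
    have h4 : ((K.card + 1 : ℕ) : ℝ) ≤ 2 * xt := by
      have : K.card + 1 ≤ 2 * xt := by omega
      exact_mod_cast this
    calc (E : ℝ) ≤ ((K.card + 1 : ℕ) : ℝ) * Real.log n := h1
      _ ≤ ((K.card + 1 : ℕ) : ℝ) * M := mul_le_mul_of_nonneg_left hlog (by positivity)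
      _ ≤ (2 * xt) * M := mul_le_mul_of_nonneg_right h4 hM0.le
      _ = 2 * xt * M := by ring
  have hcast : (G.card : ℝ) ≤ ∏ z ∈ Y, (δ z : ℝ) := by exact_mod_cast hprod
  refine hcast.trans ?_
  have hfinj := hinj f hf
  have hfadj := hadj f hf
  -- the high steps
  set Qc : ℕ → ℝ := fun τ => ((Qs T₀ Y dg τ).card : ℝ) with hQc
  have hhigh : ∀ τ : ℕ, ((LEs Y dg δ τ).card : ℝ) ≤ Qc τ * M ∧
      ((LEs Y dg δ τ).card : ℝ) ≤ xt + Qc τ := by
    intro τ
    obtain ⟨W, hWY, hcl, hc1, hc2⟩ := threshold_edges h hdisj hdeg2 hall τ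
    constructor
    · rcases Finset.eq_empty_or_nonempty W with h0 | hWne
      · rw [h0, tE_empty, Finset.card_empty, Nat.le_zero] at hc1
        rw [hc1]
        simp only [Nat.cast_zero, hQc]
        positivity
      · have hWB : W ⊆ B := hWY.trans hYB
        have hWx : W ≠ B := by
          intro h1
          have h2 : x ∈ W := h1 ▸ hx
          exact (Finset.mem_erase.mp (hWY h2)).1 rfl
        have h1 := e1_bound hn hq hp hyp hb hfinj hfadj hWB hWne hWx (Qs T₀ Y dg τ) hcl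
        have h2 : Real.exp ((tE P W).card : ℝ) = Real.exp 1 ^ (tE P W).card := by
          rw [← Real.exp_nat_mul]; simp
        have h3 : (n : ℝ) ^ (Qs T₀ Y dg τ).card
            = Real.exp (((Qs T₀ Y dg τ).card : ℝ) * Real.log n) := by
          rw [Real.exp_nat_mul, Real.exp_log hn0]
        rw [← h2, h3, Real.exp_le_exp] at h1
        have h4 : ((LEs Y dg δ τ).card : ℝ) ≤ ((tE P W).card : ℝ) := by exact_mod_cast hc1
        calc ((LEs Y dg δ τ).card : ℝ) ≤ ((tE P W).card : ℝ) := h4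
          _ ≤ ((Qs T₀ Y dg τ).card : ℝ) * Real.log n := h1
          _ ≤ ((Qs T₀ Y dg τ).card : ℝ) * M := mul_le_mul_of_nonneg_left hlog (by positivity)
    · have h1 : (tE P Y).card ≤ b := Finset.card_le_card (tE_mono P hYB)
      have h2 : y ≤ (Y.filter (fun z => dg z < τ)).card + (Qs T₀ Y dg τ).card := by
        have h3 : Y ⊆ Y.filter (fun z => dg z < τ) ∪ Qs T₀ Y dg τ := by
          intro z hz
          by_cases h4 : dg z < τ
          · exact Finset.mem_union_left _ (Finset.mem_filter.mpr ⟨hz, h4⟩)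
          · refine Finset.mem_union_right _ (Finset.mem_filter.mpr
              ⟨Finset.mem_union_right _ hz, by omega⟩)
        exact (Finset.card_le_card h3).trans (Finset.card_union_le _ _)
      have h5 : (LEs Y dg δ τ).card ≤ xt + (Qs T₀ Y dg τ).card := by omega
      have h6 : ((LEs Y dg δ τ).card : ℝ) ≤ (xt : ℝ) + ((Qs T₀ Y dg τ).card : ℝ) := by
        exact_mod_cast h5
      exact h6
  have hE0 : (0 : ℝ) ≤ E := Nat.cast_nonneg _
  have hmain := prod_delta_le Y δ Qc hxt1 hM hE0 hEbudget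
    (by
      intro z hz
      rw [h.delta z hz]
      exact_mod_cast degX_le_card X _)
    (by
      intro τ _
      have h1 : ((Y.filter (fun z => τ ≤ δ z)).card : ℝ)
          ≤ ((Qs T₀ Y dg τ).card : ℝ) + ((LEs Y dg δ τ).card : ℝ) := by
        exact_mod_cast high_card_le (T₀ := T₀) (Y := Y) (dg := dg) (δ := δ) τ
      have h2 := (hhigh τ).1
      simp only [hQc] at h2 ⊢
      linarith)
    (by
      intro τ _
      have h1 : ((Y.filter (fun z => τ ≤ δ z)).card : ℝ)
          ≤ ((Qs T₀ Y dg τ).card : ℝ) + ((LEs Y dg δ τ).card : ℝ) := by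
        exact_mod_cast high_card_le (T₀ := T₀) (Y := Y) (dg := dg) (δ := δ) τ
      have h2 := (hhigh τ).2
      simp only [hQc] at h2 ⊢
      linarith)
    (by
      intro τ _
      have h1 : (Qs T₀ Y dg τ).card * τ ≤ ∑ r ∈ Qs T₀ Y dg τ, dg r := by
        rw [← smul_eq_mul, ← Finset.sum_const]
        exact Finset.sum_le_sum fun r hr => (Finset.mem_filter.mp hr).2
      have h2 : ∑ r ∈ Qs T₀ Y dg τ, dg r ≤ 2 * E := sum_degX_le X _ hfinj
      have h3 : (Qs T₀ Y dg τ).card * τ ≤ 2 * E := h1.trans h2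
      simp only [hQc]
      exact_mod_cast h3)
    (by omega)
  have e1 : xt + Y.card - 1 = b - 1 := by
    rw [← hy, hbxy]
  have e2 : (b - (B.card - 1) : ℕ) = xt := by
    rw [← hYcard]
  rw [e1] at hmain
  rw [e2]
  exact hmain

end

end Vale.Agent.Lib.P064h
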