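import Vale.Agent.Lib.P064h.Block2

/-!
The count for a whole block.
-/

namespace Vale.Agent.Lib.P064h

open Finset SimpleGraph Vale.Agent.Lib.P064
open scoped Classical Nat

set_option linter.unusedSectionVars false
set_option linter.unusedVariables false

variable {V : Type*} [Fintype V] {Z : Type*} [Fintype Z]

lemma exp_two_le_eight : Real.exp 2 ≤ 8 := by
  have h1 : Real.exp 2 = Real.exp 1 * Real.exp 1 := by
    rw [← Real.exp_add]; norm_num
  have h2 := Real.exp_one_lt_d9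
  have h3 := Real.exp_pos 1
  rw [h1]
  nlinarith

/-- The number of petals. -/
lemma r_bound {r k n : ℕ} {ν M : ℝ} (hn : 1 ≤ n) (hν : 0 < ν) (hM0 : 0 ≤ M)
    (hlog : Real.log n ≤ M) (h : ((r ! : ℕ) : ℝ) ≤ (n : ℝ) ^ k * ν ^ r) :
    (r : ℝ) ≤ 8 * ν + k * M := by
  by_contra hcon
  push Not at hcon
  have hn' : (1 : ℝ) ≤ n := by exact_mod_cast hn
  have hn0 : (0 : ℝ) < n := by linarith
  have hkM : 0 ≤ (k : ℝ) * M := by positivity
  have hr0 : (0 : ℝ) < r := by linarith
  set E := Real.exp (r : ℝ) with hE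
  have hE0 : 0 < E := Real.exp_pos _
  have hE2 : Real.exp 2 ^ r = E * E := by
    rw [hE, ← Real.exp_add, ← Real.exp_nat_mul]
    congr 1
    ring
  have hνle : ν ≤ (r : ℝ) / Real.exp 2 := by
    rw [le_div_iff₀ (Real.exp_pos 2)]
    have := exp_two_le_eight
    nlinarith
  have hνr : ν ^ r ≤ (r : ℝ) ^ r / (E * E) := by
    rw [← hE2, ← div_pow]
    exact pow_le_pow_left₀ hν.le hνle r
  have hfac : (0 : ℝ) < ((r ! : ℕ) : ℝ) := by exact_mod_cast Nat.factorial_pos r
  have h1 : (r : ℝ) ^ r / ((r ! : ℕ) : ℝ) ≤ E := Real.pow_div_factorial_le_exp _ hr0.le r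
  have h2 : (r : ℝ) ^ r ≤ E * ((r ! : ℕ) : ℝ) := (div_le_iff₀ hfac).mp h1
  set A := (r : ℝ) ^ r with hA
  have hA0 : 0 < A := by positivity
  have hnk : 0 < (n : ℝ) ^ k := by positivity
  have h3 : A ≤ E * ((n : ℝ) ^ k * (A / (E * E))) := by
    calc A ≤ E * ((r ! : ℕ) : ℝ) := h2
      _ ≤ E * ((n : ℝ) ^ k * ν ^ r) := mul_le_mul_of_nonneg_left h hE0.le
      _ ≤ E * ((n : ℝ) ^ k * (A / (E * E))) := by
          refine mul_le_mul_of_nonneg_left ?_ hE0.le
          exact mul_le_mul_of_nonneg_left hνr hnk.le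
  have h4 : E * ((n : ℝ) ^ k * (A / (E * E))) = (n : ℝ) ^ k * A / E := by
    field_simp
  rw [h4, le_div_iff₀ hE0] at h3
  have h5 : E ≤ (n : ℝ) ^ k := by
    have h6 : A * E ≤ A * (n : ℝ) ^ k := by linarith
    exact le_of_mul_le_mul_left h6 hA0
  have h6 : (n : ℝ) ^ k = Real.exp ((k : ℝ) * Real.log n) := by
    rw [Real.exp_nat_mul, Real.exp_log hn0]
  rw [h6, hE, Real.exp_le_exp] at h5
  have h7 : (k : ℝ) * Real.log n ≤ k * M := mul_le_mul_of_nonneg_left hlog (Nat.cast_nonneg k)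
  have h8 : 0 ≤ 8 * ν := by positivity
  linarith

/-- A maximal family with pairwise disjoint images. -/
lemma exists_max_disjoint (G : Finset (Z → V)) (B : Finset Z) (hB : B.Nonempty) :
    ∃ D ⊆ G, (∀ f ∈ D, ∀ f' ∈ D, f ≠ f' → ∀ z ∈ B, ∀ z' ∈ B, f z ≠ f' z') ∧
      ∀ g ∈ G, ∃ f ∈ D, ∃ z ∈ B, ∃ z' ∈ B, g z = f z' := by
  set A := G.powerset.filter
    (fun D => ∀ f ∈ D, ∀ f' ∈ D, f ≠ f' → ∀ z ∈ B, ∀ z' ∈ B, f z ≠ f' z') with hA
  have hAne : A.Nonempty := ⟨∅, Finset.mem_filter.mpr ⟨Finset.empty_mem_powerset _, by simp⟩⟩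
  obtain ⟨D, hD, hmax⟩ := Finset.exists_max_image A Finset.card hAne
  rcases Finset.mem_filter.mp hD with ⟨hD1, hD2⟩
  have hDG : D ⊆ G := Finset.mem_powerset.mp hD1
  refine ⟨D, hDG, hD2, ?_⟩
  intro g hg
  by_contra hcon
  push Not at hcon
  have hgD : g ∉ D := by
    intro h
    obtain ⟨z, hz⟩ := hB
    exact hcon g h z hz z hz rfl
  have hins : insert g D ∈ A := by
    refine Finset.mem_filter.mpr ⟨Finset.mem_powerset.mpr (Finset.insert_subset hg hDG), ?_⟩
    intro f hf f' hf' hne z hz z' hz'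
    rcases Finset.mem_insert.mp hf with rfl | hf1 <;> rcases Finset.mem_insert.mp hf' with rfl | hf2
    · exact absurd rfl hne
    · exact hcon f' hf2 z hz z' hz'
    · exact fun h => hcon f hf1 z' hz' z hz h.symm
    · exact hD2 f hf1 f' hf2 hne z hz z' hz'
  have := hmax _ hins
  rw [Finset.card_insert_of_notMem hgD] at this
  omega

/-- The cover by the copies through a vertex of the maximal family. -/
lemma cover_bound (G D : Finset (Z → V)) (B : Finset Z) (N : ℝ) (hN : 0 ≤ N)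
    (hcov : ∀ g ∈ G, ∃ f ∈ D, ∃ z ∈ B, ∃ z' ∈ B, g z = f z')
    (hloc : ∀ x ∈ B, ∀ u : V, ((G.filter (fun g => g x = u)).card : ℝ) ≤ N) :
    (G.card : ℝ) ≤ (B.card : ℝ) * ((D.card : ℝ) * (B.card : ℝ)) * N := by
  set U := D.biUnion (fun f => B.image f) with hU
  have hUc : U.card ≤ D.card * B.card := by
    refine Finset.card_biUnion_le_card_mul _ _ _ fun f _ => Finset.card_image_le
  have hsub : G ⊆ B.biUnion (fun x => U.biUnion (fun u => G.filter (fun g => g x = u))) := by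
    intro g hg
    obtain ⟨f, hf, z, hz, z', hz', h⟩ := hcov g hg
    refine Finset.mem_biUnion.mpr ⟨z, hz, Finset.mem_biUnion.mpr ⟨g z, ?_, ?_⟩⟩
    · exact Finset.mem_biUnion.mpr ⟨f, hf, Finset.mem_image.mpr ⟨z', hz', h.symm⟩⟩
    · exact Finset.mem_filter.mpr ⟨hg, rfl⟩
  have h1 : G.card ≤ ∑ x ∈ B, ∑ u ∈ U, (G.filter (fun g => g x = u)).card := by
    refine (Finset.card_le_card hsub).trans (Finset.card_biUnion_le.trans ?_)
    exact Finset.sum_le_sum fun x _ => Finset.card_biUnion_le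
  have h2 : (G.card : ℝ) ≤ ∑ x ∈ B, ∑ u ∈ U, ((G.filter (fun g => g x = u)).card : ℝ) := by
    exact_mod_cast h1
  have h3 : ∑ x ∈ B, ∑ u ∈ U, ((G.filter (fun g => g x = u)).card : ℝ)
      ≤ ∑ _x ∈ B, ∑ _u ∈ U, N :=
    Finset.sum_le_sum fun x hx => Finset.sum_le_sum fun u _ => hloc x hx u
  have h4 : ∑ _x ∈ B, ∑ _u ∈ U, N = (B.card : ℝ) * ((U.card : ℝ) * N) := by
    simp only [Finset.sum_const, nsmul_eq_mul]
  have h5 : (U.card : ℝ) ≤ (D.card : ℝ) * (B.card : ℝ) := by exact_mod_cast hUc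
  calc (G.card : ℝ) ≤ (B.card : ℝ) * ((U.card : ℝ) * N) := by linarith
    _ ≤ (B.card : ℝ) * (((D.card : ℝ) * (B.card : ℝ)) * N) := by
        refine mul_le_mul_of_nonneg_left ?_ (Nat.cast_nonneg _)
        exact mul_le_mul_of_nonneg_right h5 hN
    _ = _ := by ring

/-- The constant of the block bound. -/
noncomputable def constC : ℝ := 128 * Real.exp 16

lemma exp_sixteen_ge : 1 ≤ Real.exp 16 := Real.one_le_exp (by norm_num)

lemma constC_pos : 0 < constC := by
  unfold constC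
  positivity

lemma one_le_constC : 1 ≤ constC := by
  unfold constC
  have := exp_sixteen_ge
  linarith

/-- The bound on the number of disjoint members. -/
lemma R_le {ν M : ℝ} {k b : ℕ} (hν : 0 < ν) (hνb : 1 ≤ ν * Real.exp 1 ^ b) (hM : 1 ≤ M) (hk : k ≤ b)
    (hb : 1 ≤ b) : 8 * ν + k * M ≤ ν * M * 16 ^ b := by
  have hM0 : 0 < M := by linarith
  have hk' : (k : ℝ) ≤ 2 ^ b := by
    have h1 : k < 2 ^ b := lt_of_le_of_lt hk Nat.lt_two_pow_self
    have h2 : (k : ℝ) < ((2 ^ b : ℕ) : ℝ) := by exact_mod_cast h1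
    push_cast at h2
    exact h2.le
  have he : Real.exp 1 ^ b ≤ 3 ^ b := pow_le_pow_left₀ (Real.exp_pos 1).le Real.exp_one_lt_three.le b
  have h8 : (8 : ℝ) ≤ 8 ^ b := by
    calc (8 : ℝ) = 8 ^ 1 := by norm_num
      _ ≤ 8 ^ b := pow_le_pow_right₀ (by norm_num) hb
  have h6 : (6 : ℝ) ^ b ≤ 8 ^ b := pow_le_pow_left₀ (by norm_num) (by norm_num) b
  have h16 : (2 : ℝ) * 8 ^ b ≤ 16 ^ b := by
    have e : (16 : ℝ) ^ b = 2 ^ b * 8 ^ b := by
      rw [← mul_pow]; norm_num
    rw [e]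
    have h2 : (2 : ℝ) ≤ 2 ^ b := by
      calc (2 : ℝ) = 2 ^ 1 := by norm_num
        _ ≤ 2 ^ b := pow_le_pow_right₀ (by norm_num) hb
    exact mul_le_mul_of_nonneg_right h2 (by positivity)
  have h1 : (k : ℝ) * M ≤ ν * M * 6 ^ b := by
    have h2 : (k : ℝ) * M * 1 ≤ 2 ^ b * M * (ν * Real.exp 1 ^ b) := by
      refine mul_le_mul (mul_le_mul_of_nonneg_right hk' hM0.le) hνb (by norm_num) (by positivity)
    have h3 : (2 : ℝ) ^ b * M * (ν * Real.exp 1 ^ b) ≤ 2 ^ b * M * (ν * 3 ^ b) := by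
      refine mul_le_mul_of_nonneg_left ?_ (by positivity)
      exact mul_le_mul_of_nonneg_left he hν.le
    have e6 : (6 : ℝ) ^ b = 2 ^ b * 3 ^ b := by
      rw [← mul_pow]; norm_num
    rw [e6]
    nlinarith
  have h2 : 8 * ν ≤ ν * M * 8 ^ b := by
    have h3 : ν * 8 ≤ ν * M * 8 ^ b := by
      calc ν * 8 = ν * 1 * 8 := by ring
        _ ≤ ν * M * 8 ^ b := by
            refine mul_le_mul (mul_le_mul_of_nonneg_left hM hν.le) h8 (by norm_num) (by positivity)
    linarith
  have h3 : ν * M * 6 ^ b ≤ ν * M * 8 ^ b := mul_le_mul_of_nonneg_left h6 (by positivity)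
  have h4 : ν * M * (2 * 8 ^ b) ≤ ν * M * 16 ^ b := mul_le_mul_of_nonneg_left h16 (by positivity)
  nlinarith

/-- The numerics of the dense regime. -/
lemma num_dense {ν M R : ℝ} {a b k xt : ℕ} (hν : 0 < ν) (hνb : 1 ≤ ν * Real.exp 1 ^ b) (hM : 1 ≤ M)
    (hk : k ≤ b) (hab : a ≤ b) (hb : 1 ≤ b) (hxt : xt ≤ b) (hR : R ≤ 8 * ν + k * M) (hR0 : 0 ≤ R) :
    (a : ℝ) * (R * (a : ℝ)) * (Real.exp (16 * xt) * M ^ (b - 1)) ≤ ν * (constC * M) ^ b := by
  have hM0 : 0 < M := by linarith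
  have h1 := hR.trans (R_le hν hνb hM hk hb)
  have ha : (a : ℝ) ≤ 2 ^ b := by
    have h2 : a < 2 ^ b := lt_of_le_of_lt hab Nat.lt_two_pow_self
    have h3 : (a : ℝ) < ((2 ^ b : ℕ) : ℝ) := by exact_mod_cast h2
    push_cast at h3
    exact h3.le
  have hexp : Real.exp (16 * (xt : ℝ)) ≤ Real.exp 16 ^ b := by
    rw [← Real.exp_nat_mul]
    refine Real.exp_le_exp.mpr ?_
    have : (xt : ℝ) ≤ b := by exact_mod_cast hxt
    nlinarith
  have hMb : M * M ^ (b - 1) = M ^ b := by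
    rw [← pow_succ']
    congr 1
    omega
  have hfin : (2 : ℝ) ^ b * (ν * M * 16 ^ b * 2 ^ b) * (Real.exp 16 ^ b * M ^ (b - 1))
      = ν * (64 * Real.exp 16 * M) ^ b := by
    have e : (64 * Real.exp 16 * M) ^ b = (2 : ℝ) ^ b * 16 ^ b * 2 ^ b * Real.exp 16 ^ b * M ^ b := by
      rw [← mul_pow, ← mul_pow, ← mul_pow, ← mul_pow]
      congr 1
      ring
    rw [e, ← hMb]
    ring
  have hC : 64 * Real.exp 16 * M ≤ constC * M := by
    refine mul_le_mul_of_nonneg_right ?_ hM0.le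
    unfold constC
    have := exp_sixteen_ge
    linarith
  calc (a : ℝ) * (R * (a : ℝ)) * (Real.exp (16 * xt) * M ^ (b - 1))
      ≤ (2 : ℝ) ^ b * (ν * M * 16 ^ b * 2 ^ b) * (Real.exp 16 ^ b * M ^ (b - 1)) := by
        refine mul_le_mul (mul_le_mul ha (mul_le_mul h1 ha (Nat.cast_nonneg _) (by positivity))
          (by positivity) (by positivity))
          (mul_le_mul_of_nonneg_right hexp (by positivity)) (by positivity) (by positivity)
    _ = ν * (64 * Real.exp 16 * M) ^ b := hfin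
    _ ≤ ν * (constC * M) ^ b := by
        refine mul_le_mul_of_nonneg_left ?_ hν.le
        exact pow_le_pow_left₀ (by positivity) hC b

/-- The numerics of the sparse regime. -/
lemma num_sparse {ν M R : ℝ} {y b k : ℕ} (hν : 0 < ν) (hνb : 1 ≤ ν * Real.exp 1 ^ b) (hM : 1 ≤ M)
    (hy : 1 ≤ y) (hk : y + k ≤ b) (hR : R ≤ 8 * ν + k * M) (hR0 : 0 ≤ R) :
    ((y + 1 : ℕ) : ℝ) * (R * ((y + 1 : ℕ) : ℝ)) * (2 * M) ^ y ≤ ν * (constC * M) ^ b := by
  have hM0 : 0 < M := by linarith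
  have ha : ((y + 1 : ℕ) : ℝ) ≤ 2 ^ y := by
    have h2 : y + 1 ≤ 2 ^ y := Nat.lt_two_pow_self
    exact_mod_cast h2
  have haa : 0 ≤ ((y + 1 : ℕ) : ℝ) := Nat.cast_nonneg _
  have h8M : 1 ≤ 8 * M := by linarith
  have hE : ((y + 1 : ℕ) : ℝ) * (R * ((y + 1 : ℕ) : ℝ)) * (2 * M) ^ y ≤ R * (8 * M) ^ y := by
    have e : (8 * M) ^ y = 2 ^ y * 2 ^ y * (2 * M) ^ y := by
      rw [← mul_pow, ← mul_pow]
      congr 1
      ring
    rw [e]
    have h2 : ((y + 1 : ℕ) : ℝ) * ((y + 1 : ℕ) : ℝ) ≤ 2 ^ y * 2 ^ y :=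
      mul_le_mul ha ha haa (by positivity)
    have h3 : 0 ≤ R * (2 * M) ^ y := by positivity
    calc ((y + 1 : ℕ) : ℝ) * (R * ((y + 1 : ℕ) : ℝ)) * (2 * M) ^ y
        = (((y + 1 : ℕ) : ℝ) * ((y + 1 : ℕ) : ℝ)) * (R * (2 * M) ^ y) := by ring
      _ ≤ (2 ^ y * 2 ^ y) * (R * (2 * M) ^ y) := mul_le_mul_of_nonneg_right h2 h3
      _ = R * (2 ^ y * 2 ^ y * (2 * M) ^ y) := by ring
  refine hE.trans ?_
  have hC : 128 * M ≤ constC * M := by
    refine mul_le_mul_of_nonneg_right ?_ hM0.le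
    unfold constC
    have := exp_sixteen_ge
    linarith
  have hC' : (128 * M) ^ b ≤ (constC * M) ^ b := pow_le_pow_left₀ (by positivity) hC b
  have hfin : ν * (128 * M) ^ b ≤ ν * (constC * M) ^ b := mul_le_mul_of_nonneg_left hC' hν.le
  refine le_trans ?_ hfin
  have e128 : (128 * M) ^ b = 16 ^ b * (8 * M) ^ b := by
    rw [← mul_pow]
    congr 1
    ring
  rw [e128]
  rcases Nat.eq_zero_or_pos k with hk0 | hk0
  · -- no attachments
    rw [hk0] at hR
    simp only [Nat.cast_zero, zero_mul, add_zero] at hR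
    have hb : 1 ≤ b := by omega
    have h1 : (8 : ℝ) ≤ 16 ^ b := by
      calc (8 : ℝ) ≤ 16 ^ 1 := by norm_num
        _ ≤ 16 ^ b := pow_le_pow_right₀ (by norm_num) hb
    have h2 : (8 * M) ^ y ≤ (8 * M) ^ b := pow_le_pow_right₀ h8M (by omega)
    calc R * (8 * M) ^ y ≤ (8 * ν) * (8 * M) ^ b :=
          mul_le_mul hR h2 (by positivity) (by positivity)
      _ = ν * (8 * (8 * M) ^ b) := by ring
      _ ≤ ν * (16 ^ b * (8 * M) ^ b) := by
          refine mul_le_mul_of_nonneg_left ?_ hν.le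
          exact mul_le_mul_of_nonneg_right h1 (by positivity)
  · -- attachments
    have hb : 1 ≤ b := by omega
    have h1 := hR.trans (R_le hν hνb hM (by omega : k ≤ b) hb)
    have h2 : (8 * M) * (8 * M) ^ y ≤ (8 * M) ^ b := by
      rw [← pow_succ']
      exact pow_le_pow_right₀ h8M (by omega)
    calc R * (8 * M) ^ y ≤ (ν * M * 16 ^ b) * (8 * M) ^ y :=
          mul_le_mul_of_nonneg_right h1 (by positivity)
      _ = ν * 16 ^ b * (M * (8 * M) ^ y) := by ring
      _ ≤ ν * 16 ^ b * ((8 * M) * (8 * M) ^ y) := by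
          refine mul_le_mul_of_nonneg_left ?_ (by positivity)
          refine mul_le_mul_of_nonneg_right (by linarith) (by positivity)
      _ ≤ ν * 16 ^ b * (8 * M) ^ b := mul_le_mul_of_nonneg_left h2 (by positivity)
      _ = ν * (16 ^ b * (8 * M) ^ b) := by ring

/-- In the dense regime a block with at least two vertices has at least as many edges as
vertices. -/
lemma dense_edges {P : SimpleGraph Z} {B : Finset Z} {n : ℕ} {p₁ : ℝ} (hb : BlockP P B n p₁)
    (hn : 1 ≤ n) (hp0 : 0 < p₁) (hp : p₁ ≤ 1) (hd : 1 ≤ (n : ℝ) * p₁) (hB2 : 2 ≤ B.card)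
    {x : Z} (hx : x ∈ B) : B.card ≤ (tE P B).card := by
  have hKB : ∀ k ∈ Kof P B, k ∉ B := fun k hk => (mem_Kof.mp hk).1
  have hdisj : Disjoint (insert x (Kof P B)) (B.erase x) := by
    rw [Finset.disjoint_left]
    intro t ht ht'
    rcases Finset.mem_insert.mp ht with rfl | h
    · exact (Finset.mem_erase.mp ht').1 rfl
    · exact hKB t h (Finset.mem_erase.mp ht').2
  obtain ⟨f, _, tm, δ, par, h, _⟩ := prim_heavy (V := Z) P (Finset.univ : Finset (Sym2 Z))
    (B.erase x).card (insert x (Kof P B)) (B.erase x) rfl hdisj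
    (by
      intro S hS hSne
      obtain ⟨p, hp1, z, hz, hpz⟩ := reach_in hb hn hp0 hp hx hS hSne
      rcases Finset.mem_sdiff.mp hp1 with ⟨h1, h2⟩
      refine ⟨p, Finset.mem_sdiff.mpr ⟨?_, h2⟩, z, hz, hpz⟩
      by_cases h3 : p = x
      · rw [h3]
        exact Finset.mem_union_left _ (Finset.mem_insert_self _ _)
      · exact Finset.mem_union_right _ (Finset.mem_erase.mpr ⟨h3, h1⟩))
    {id} (by simp)
    (by
      intro a ha b hb' t _
      rw [Finset.mem_singleton.mp ha, Finset.mem_singleton.mp hb'])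
    (by
      intro a ha b hb' _
      rw [Finset.mem_singleton.mp ha, Finset.mem_singleton.mp hb'])
    (fun _ _ _ _ _ => Finset.mem_univ _)
  have hcard : (B.erase x).card = B.card - 1 := Finset.card_erase_of_mem hx
  have hYne : (B.erase x).Nonempty := by
    rw [← Finset.card_pos, hcard]
    omega
  have h1 := extra_tree h hdisj
    (fun z hz => deg_two hb hp0 hp hd hB2 (Finset.mem_erase.mp hz).2 (par z)) hYne
  have h2 : (tE P (B.erase x)).card ≤ (tE P B).card :=
    Finset.card_le_card (tE_mono P (Finset.erase_subset _ _))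
  omega

/-- The count for a block. -/
theorem block_count {P : SimpleGraph Z} {B : Finset Z} {n : ℕ} {q : ℝ} {H : SimpleGraph V} {M : ℝ}
    (hn : 1 ≤ n) (hV : Fintype.card V ≤ n) (hq : 0 < q) (hp : Real.exp 1 * q ≤ 1)
    (hyp : ∀ F : H.Subgraph, 1 ≤ expCopies n q F.coe) (hb : BlockP P B n (Real.exp 1 * q))
    (hM : 1 ≤ M) (hlog : Real.log n ≤ M) (G : Finset (Z → V))
    (hinj : ∀ f ∈ G, Function.Injective f)
    (hadj : ∀ f ∈ G, ∀ u w, P.Adj u w → H.Adj (f u) (f w))
    (hag : ∀ f ∈ G, ∀ f' ∈ G, ∀ k ∈ Kof P B, f k = f' k)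
    (hdist : ∀ f ∈ G, ∀ f' ∈ G, (∀ z ∈ B, f z = f' z) → f = f') :
    (G.card : ℝ) ≤ (n : ℝ) ^ B.card * q ^ (tE P B).card * (constC * M) ^ (tE P B).card := by
  have hn' : (1 : ℝ) ≤ n := by exact_mod_cast hn
  have hn0 : (0 : ℝ) < n := by linarith
  have hM0 : 0 < M := by linarith
  have hp0 : 0 < Real.exp 1 * q := by positivity
  have hq1 := q_le_one hq hp
  set b := (tE P B).card with hbdef
  set a := B.card with hadef
  set K := Kof P B with hK
  set k := K.card with hkdef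
  set ν := (n : ℝ) ^ a * q ^ b with hν
  have hν0 : 0 < ν := by positivity
  have hνb : 1 ≤ ν * Real.exp 1 ^ b := by
    have h1 := hb.P2
    have e : (n : ℝ) ^ a * (Real.exp 1 * q) ^ b = ν * Real.exp 1 ^ b := by
      rw [hν, mul_pow]; ring
    rwa [e] at h1
  obtain ⟨x₀, hx₀⟩ := hb.ne
  have hspan : (B.erase x₀).card + k ≤ b := span_count hb hn hp0 hp hx₀
  have hycard : (B.erase x₀).card = a - 1 := Finset.card_erase_of_mem hx₀
  have ha1 : 1 ≤ a := Finset.card_pos.mpr ⟨x₀, hx₀⟩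
  have hCM : 0 < constC * M := mul_pos constC_pos hM0
  -- petals of a pairwise disjoint family
  have hpet : ∀ D ⊆ G, (∀ f ∈ D, ∀ f' ∈ D, f ≠ f' → ∀ z ∈ B, ∀ z' ∈ B, f z ≠ f' z') →
      (D.card : ℝ) ≤ 8 * ν + k * M := by
    intro D hD hpw
    have h1 := petal_bound (ι := D) (P := P) (B := B) (fam := fun i => i.1) (H := H) hn hq hq1 hyp
      hb.ne hb.touch (fun i => hinj _ (hD i.2)) (fun i => hadj _ (hD i.2))
      (fun i i' => hag _ (hD i.2) _ (hD i'.2))
      (fun i i' hii => hpw _ i.2 _ i'.2 (fun h => hii (Subtype.ext h)))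
    rw [Fintype.card_coe] at h1
    exact r_bound hn hν0 hM0.le hlog h1
  by_cases ha : a = 1
  · -- a single vertex
    have hGall : ∀ f ∈ G, ∀ f' ∈ G, f ≠ f' → ∀ z ∈ B, ∀ z' ∈ B, f z ≠ f' z' := by
      intro f hf f' hf' hne z hz z' hz' heq
      have hzz : z = z' := Finset.card_le_one.mp (by omega) z hz z' hz'
      subst hzz
      refine hne (hdist f hf f' hf' fun w hw => ?_)
      have hwz : w = z := Finset.card_le_one.mp (by omega) w hw z hz
      rw [hwz]
      exact heq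
    rcases Nat.eq_zero_or_pos b with hb0 | hb1
    · -- no edges at all
      have hGn : G.card ≤ n := by
        refine le_trans ?_ hV
        rw [← Finset.card_univ]
        refine Finset.card_le_card_of_injOn (fun f => f x₀) (fun _ _ => Finset.mem_coe.mpr (Finset.mem_univ _)) ?_
        intro f hf f' hf' h
        by_contra hne
        exact hGall f hf f' hf' hne x₀ hx₀ x₀ hx₀ h
      have hνn : ν = (n : ℝ) := by
        rw [hν, hb0, ha]
        simp
      rw [hb0, pow_zero, mul_one, hνn]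
      exact_mod_cast hGn
    · have h1 := hpet G (Finset.Subset.refl _) hGall
      have h2 := h1.trans (R_le hν0 hνb hM (by omega : k ≤ b) hb1)
      refine h2.trans ?_
      have h3 : M * 16 ^ b ≤ (constC * M) ^ b := by
        have h4 : (16 * M) ^ b ≤ (constC * M) ^ b := by
          refine pow_le_pow_left₀ (by positivity) ?_ b
          refine mul_le_mul_of_nonneg_right ?_ hM0.le
          unfold constC
          have := exp_sixteen_ge
          linarith
        have h5 : M * 16 ^ b ≤ (16 * M) ^ b := by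
          rw [mul_pow, mul_comm]
          refine mul_le_mul_of_nonneg_left ?_ (by positivity)
          calc M = M ^ 1 := (pow_one M).symm
            _ ≤ M ^ b := pow_le_pow_right₀ hM hb1
        exact h5.trans h4
      calc ν * M * 16 ^ b = ν * (M * 16 ^ b) := by ring
        _ ≤ ν * (constC * M) ^ b := mul_le_mul_of_nonneg_left h3 hν0.le
  · -- at least two vertices
    have ha2 : 2 ≤ a := by omega
    obtain ⟨D, hDG, hDpw, hcov⟩ := exists_max_disjoint G B hb.ne
    have hD := hpet D hDG hDpw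
    have hD0 : (0 : ℝ) ≤ D.card := Nat.cast_nonneg _
    -- the restriction of the hypotheses to the family through a vertex
    have hsubx : ∀ x u, G.filter (fun g => g x = u) ⊆ G := fun _ _ => Finset.filter_subset _ _
    have hagx : ∀ x u, ∀ f ∈ G.filter (fun g => g x = u), ∀ f' ∈ G.filter (fun g => g x = u),
        ∀ t ∈ insert x K, f t = f' t := by
      intro x u f hf f' hf' t ht
      rcases Finset.mem_insert.mp ht with rfl | h
      · rw [(Finset.mem_filter.mp hf).2, (Finset.mem_filter.mp hf').2]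
      · exact hag f (hsubx _ _ hf) f' (hsubx _ _ hf') t h
    by_cases hs : Real.exp 1 * (n * q) ≤ 1
    · -- sparse regime
      have hloc : ∀ x ∈ B, ∀ u : V, ((G.filter (fun g => g x = u)).card : ℝ) ≤ (2 * M) ^ (a - 1) := by
        intro x hx u
        exact local_sparse hn hq hp hyp hb hs hM hlog hx _
          (fun f hf => hadj f (hsubx _ _ hf)) (hagx x u)
          (fun f hf f' hf' => hdist f (hsubx _ _ hf) f' (hsubx _ _ hf'))
      have h1 := cover_bound G D B _ (by positivity) hcov hloc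
      obtain ⟨y, hy⟩ : ∃ y, a = y + 1 := ⟨a - 1, by omega⟩
      have hy1 : 1 ≤ y := by omega
      have hay : a - 1 = y := by omega
      rw [hay] at h1
      rw [hycard, hay] at hspan
      have h2 := num_sparse hν0 hνb hM hy1 hspan hD hD0
      rw [← hy] at h2
      exact h1.trans h2
    · -- dense regime
      have hd : 1 ≤ (n : ℝ) * (Real.exp 1 * q) := by
        push Not at hs
        nlinarith
      set xt := b - (a - 1) with hxt
      have hloc : ∀ x ∈ B, ∀ u : V, ((G.filter (fun g => g x = u)).card : ℝ)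
          ≤ Real.exp (16 * (xt : ℝ)) * M ^ (b - 1) := by
        intro x hx u
        exact local_dense hn hq hp hyp hb hd ha2 hM hlog hx _
          (fun f hf => hinj f (hsubx _ _ hf)) (fun f hf => hadj f (hsubx _ _ hf)) (hagx x u)
          (fun f hf f' hf' => hdist f (hsubx _ _ hf) f' (hsubx _ _ hf'))
      have h1 := cover_bound G D B _ (by positivity) hcov hloc
      -- `a ≤ b` in this regime
      have hab : a ≤ b := dense_edges hb hn hp0 hp hd ha2 hx₀
      have hb1 : 1 ≤ b := by omega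
      have h2 := num_dense (a := a) (k := k) (xt := xt) hν0 hνb hM (by omega) hab hb1 (by omega) hD hD0
      exact h1.trans h2

end Vale.Agent.Lib.P064h
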