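import Vale.Agent.Lib.P064h.Block3

/-!
The chain of blocks and the count of all embeddings.
-/

namespace Vale.Agent.Lib.P064h

open Finset SimpleGraph Vale.Agent.Lib.P064
open scoped Classical Nat

set_option linter.unusedSectionVars false
set_option linter.unusedVariables false

variable {V : Type*} [Fintype V] {Z : Type*} [Fintype Z]

/-- The edges of `F` inside `D`. -/
noncomputable def inE (F : SimpleGraph Z) (D : Finset Z) : Finset (Sym2 Z) :=
  (Finset.univ : Finset (Sym2 Z)).filter (fun e => e ∈ F.edgeSet ∧ ∀ v ∈ e, v ∈ D)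

lemma mem_inE {F : SimpleGraph Z} {D : Finset Z} {e : Sym2 Z} :
    e ∈ inE F D ↔ e ∈ F.edgeSet ∧ ∀ v ∈ e, v ∈ D := by
  simp [inE]

/-- The pattern of the block `B` inside `D`: the edges of `F` inside `D` that touch `B`. -/
def patG (F : SimpleGraph Z) (D B : Finset Z) : SimpleGraph Z where
  Adj u w := F.Adj u w ∧ u ∈ D ∧ w ∈ D ∧ (u ∈ B ∨ w ∈ B)
  symm := ⟨fun u w h => ⟨h.1.symm, h.2.2.1, h.2.1, h.2.2.2.symm⟩⟩
  loopless := ⟨fun u h => F.loopless.irrefl u h.1⟩

lemma patG_adj {F : SimpleGraph Z} {D B : Finset Z} {u w : Z} :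
    (patG F D B).Adj u w ↔ F.Adj u w ∧ u ∈ D ∧ w ∈ D ∧ (u ∈ B ∨ w ∈ B) := Iff.rfl

lemma inE_split (F : SimpleGraph Z) {D B W : Finset Z} (hBD : B ⊆ D) (hWB : W ⊆ B) :
    (inE F D).card = (inE F (D \ W)).card + (tE (patG F D B) W).card := by
  have hdisj : Disjoint (inE F (D \ W)) (tE (patG F D B) W) := by
    rw [Finset.disjoint_left]
    intro e he he'
    rcases mem_inE.mp he with ⟨_, h2⟩
    rcases mem_tE.mp he' with ⟨_, v, hv, hve⟩
    exact (Finset.mem_sdiff.mp (h2 v hve)).2 hv
  rw [← Finset.card_union_of_disjoint hdisj]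
  congr 1
  ext e
  simp only [Finset.mem_union, mem_inE, mem_tE]
  induction e using Sym2.ind with
  | _ a b =>
    simp only [SimpleGraph.mem_edgeSet, Sym2.mem_iff, forall_eq_or_imp, forall_eq, patG_adj,
      Finset.mem_sdiff]
    constructor
    · rintro ⟨h1, h2, h3⟩
      by_cases ha : a ∈ W
      · exact Or.inr ⟨⟨h1, h2, h3, Or.inl (hWB ha)⟩, a, ha, Or.inl rfl⟩
      · by_cases hb : b ∈ W
        · exact Or.inr ⟨⟨h1, h2, h3, Or.inr (hWB hb)⟩, b, hb, Or.inr rfl⟩
        · exact Or.inl ⟨h1, ⟨h2, ha⟩, ⟨h3, hb⟩⟩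
    · rintro (⟨h1, ⟨h2, _⟩, ⟨h3, _⟩⟩ | ⟨⟨h1, h2, h3, _⟩, _⟩)
      · exact ⟨h1, h2, h3⟩
      · exact ⟨h1, h2, h3⟩

/-- The weight of a set of vertices. -/
noncomputable def mu (F : SimpleGraph Z) (n : ℕ) (p : ℝ) (D : Finset Z) : ℝ :=
  (n : ℝ) ^ D.card * p ^ (inE F D).card

lemma mu_pos (F : SimpleGraph Z) {n : ℕ} {p : ℝ} (hn : 1 ≤ n) (hp : 0 < p) (D : Finset Z) :
    0 < mu F n p D := by
  have hn' : (0 : ℝ) < n := by exact_mod_cast hn
  unfold mu
  positivity

lemma mu_split (F : SimpleGraph Z) (n : ℕ) (p : ℝ) {D B W : Finset Z} (hBD : B ⊆ D) (hWB : W ⊆ B) :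
    mu F n p D = mu F n p (D \ W) * ((n : ℝ) ^ W.card * p ^ (tE (patG F D B) W).card) := by
  unfold mu
  rw [inE_split F hBD hWB]
  have h1 : D.card = (D \ W).card + W.card :=
    (Finset.card_sdiff_add_card_eq_card (hWB.trans hBD)).symm
  rw [h1, pow_add, pow_add]
  ring

/-- A set is admissible if it is empty, or of least weight among all its proper supersets. -/
def Adm (F : SimpleGraph Z) (n : ℕ) (p : ℝ) (A : Finset Z) : Prop :=
  A = ∅ ∨ ∀ A', A ⊆ A' → A ≠ A' → mu F n p A ≤ mu F n p A'

/-- Choose an inclusion-minimal minimiser among the proper supersets. -/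
lemma exists_next (μ : Finset Z → ℝ) {A : Finset Z} (hA : A ≠ Finset.univ) :
    ∃ D, A ⊆ D ∧ A ≠ D ∧ (∀ A', A ⊆ A' → A ≠ A' → μ D ≤ μ A') ∧
      ∀ A', A ⊆ A' → A ≠ A' → A' ⊆ D → A' ≠ D → μ D < μ A' := by
  set S : Finset (Finset Z) := (Finset.univ : Finset (Finset Z)).filter (fun A' => A ⊆ A' ∧ A ≠ A')
    with hS
  have hSne : S.Nonempty := ⟨Finset.univ, Finset.mem_filter.mpr
    ⟨Finset.mem_univ _, Finset.subset_univ _, hA⟩⟩
  obtain ⟨D₀, hD₀, hmin⟩ := Finset.exists_min_image S μ hSne
  set S' := S.filter (fun A' => μ A' ≤ μ D₀) with hS'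
  have hS'ne : S'.Nonempty := ⟨D₀, Finset.mem_filter.mpr ⟨hD₀, le_refl _⟩⟩
  obtain ⟨D, hD, hmin'⟩ := Finset.exists_min_image S' Finset.card hS'ne
  rcases Finset.mem_filter.mp hD with ⟨hD1, hD2⟩
  rcases Finset.mem_filter.mp hD1 with ⟨_, hD3, hD4⟩
  refine ⟨D, hD3, hD4, ?_, ?_⟩
  · intro A' h1 h2
    exact hD2.trans (hmin A' (Finset.mem_filter.mpr ⟨Finset.mem_univ _, h1, h2⟩))
  · intro A' h1 h2 h3 h4
    by_contra hcon
    push Not at hcon
    have h5 : A' ∈ S' := Finset.mem_filter.mpr
      ⟨Finset.mem_filter.mpr ⟨Finset.mem_univ _, h1, h2⟩, hcon.trans hD2⟩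
    have h6 := hmin' A' h5
    have h7 : A'.card < D.card := Finset.card_lt_card (Finset.ssubset_iff_subset_ne.mpr ⟨h3, h4⟩)
    omega

section
variable {H : SimpleGraph V} {n : ℕ} {q : ℝ}

/-- The next block of the chain. -/
theorem exists_block (hn : 1 ≤ n) (hq : 0 < q) (hp : Real.exp 1 * q ≤ 1)
    (hyp : ∀ F : H.Subgraph, 1 ≤ expCopies n q F.coe) (F : SimpleGraph Z) {A : Finset Z}
    (hAdm : Adm F n (Real.exp 1 * q) A) (hA : A ≠ Finset.univ) {f₀ : Z → V}
    (hf₀ : Function.Injective f₀) (hf₀adj : ∀ a b, F.Adj a b → H.Adj (f₀ a) (f₀ b)) :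
    ∃ D, A ⊆ D ∧ A ≠ D ∧ Adm F n (Real.exp 1 * q) D ∧
      BlockP (patG F D (D \ A)) (D \ A) n (Real.exp 1 * q) := by
  have hn' : (1 : ℝ) ≤ n := by exact_mod_cast hn
  have hn0 : (0 : ℝ) < n := by linarith
  set p₁ := Real.exp 1 * q with hp₁
  have hp0 : 0 < p₁ := by positivity
  obtain ⟨D, hAD, hne, hmin, hstrict⟩ := exists_next (mu F n p₁) hA
  have hBD : D \ A ⊆ D := Finset.sdiff_subset
  have hsd : D \ (D \ A) = A := Finset.sdiff_sdiff_eq_self hAD
  refine ⟨D, hAD, hne, ?_, ?_⟩
  · right
    intro A' h1 h2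
    refine hmin A' (hAD.trans h1) ?_
    rintro rfl
    exact h2 (Finset.Subset.antisymm h1 hAD)
  · set B := D \ A with hB
    set P := patG F D B with hP
    have hBne : B.Nonempty := by
      rw [Finset.sdiff_nonempty]
      intro h
      exact hne (Finset.Subset.antisymm hAD h)
    refine ⟨hBne, ?_, ?_, ?_⟩
    · intro u w h
      exact h.2.2.2
    · intro W hWB hW hWne
      have h1 := mu_split F n p₁ hBD hWB
      have hsub1 : A ⊆ D \ W := by
        intro a ha
        refine Finset.mem_sdiff.mpr ⟨hAD ha, fun h => ?_⟩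
        exact (Finset.mem_sdiff.mp (hWB h)).2 ha
      have hne1 : A ≠ D \ W := by
        intro h
        apply hWne
        refine Finset.Subset.antisymm hWB ?_
        intro z hz
        by_contra hzW
        rcases Finset.mem_sdiff.mp hz with ⟨h2, h3⟩
        exact h3 (h ▸ Finset.mem_sdiff.mpr ⟨h2, hzW⟩)
      have hne2 : D \ W ≠ D := by
        intro h
        obtain ⟨z, hz⟩ := hW
        have h2 : z ∈ D \ W := by
          rw [h]
          exact hBD (hWB hz)
        exact (Finset.mem_sdiff.mp h2).2 hz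
      have h2 := hstrict (D \ W) hsub1 hne1 Finset.sdiff_subset hne2
      rw [h1] at h2
      have h3 := mu_pos F hn hp0 (D \ W)
      by_contra hcon
      push Not at hcon
      nlinarith
    · rcases hAdm with rfl | hright
      · -- the first block
        have hBeq : B = D := by
          rw [hB]
          simp
        have hP' : ∀ e ∈ imgE P f₀ B, e ∈ H.edgeSet := by
          intro e he
          refine imgE_edge (P := P) (fun u w huw => hf₀adj u w huw.1) he
        have h1 := weak_hyp hq (q_le_one hq hp) hyp (B.image f₀) (imgE P f₀ B) hP' (by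
          intro e he v hv
          obtain ⟨e₀, he₀, rfl⟩ := Finset.mem_image.mp he
          obtain ⟨u, hu, rfl⟩ := Sym2.mem_map.mp hv
          refine Finset.mem_image_of_mem _ ?_
          rcases mem_tE.mp he₀ with ⟨h2, _⟩
          induction e₀ using Sym2.ind with
          | _ a b =>
            have hab : P.Adj a b := h2
            rw [hBeq]
            rcases Sym2.mem_iff.mp hu with rfl | rfl
            · exact hab.2.1
            · exact hab.2.2.1)
        rw [card_imgE P hf₀] at h1
        have h2 : (n : ℝ) ^ (B.image f₀).card ≤ (n : ℝ) ^ B.card :=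
          pow_le_pow_right₀ hn' Finset.card_image_le
        have hqp : q ≤ p₁ := by
          have : (1 : ℝ) ≤ Real.exp 1 := Real.one_le_exp (by norm_num)
          nlinarith
        have h3 : q ^ (tE P B).card ≤ p₁ ^ (tE P B).card := pow_le_pow_left₀ hq.le hqp _
        calc 1 ≤ (n : ℝ) ^ (B.image f₀).card * q ^ (tE P B).card := h1
          _ ≤ (n : ℝ) ^ B.card * p₁ ^ (tE P B).card :=
              mul_le_mul h2 h3 (by positivity) (by positivity)
      · have h1 := mu_split F n p₁ hBD (Finset.Subset.refl B)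
        rw [hsd] at h1
        have h2 := hright D hAD hne
        rw [h1] at h2
        have h3 := mu_pos F hn hp0 A
        by_contra hcon
        push Not at hcon
        nlinarith

/-- The count along the chain. -/
theorem chain_count {M : ℝ} (hn : 1 ≤ n) (hV : Fintype.card V ≤ n) (hq : 0 < q)
    (hp : Real.exp 1 * q ≤ 1) (hyp : ∀ F : H.Subgraph, 1 ≤ expCopies n q F.coe) (hM : 1 ≤ M)
    (hlog : Real.log n ≤ M) (F : SimpleGraph Z) :
    ∀ (m : ℕ) (A : Finset Z), (Finset.univ \ A).card = m → Adm F n (Real.exp 1 * q) A →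
      ∀ E' ⊆ Emb F H Finset.univ, (∀ f ∈ E', ∀ f' ∈ E', ∀ z ∈ A, f z = f' z) →
        (E'.card : ℝ) ≤ (n : ℝ) ^ m *
          ((constC * M) * q) ^ ((inE F Finset.univ).card - (inE F A).card) := by
  have hn' : (1 : ℝ) ≤ n := by exact_mod_cast hn
  have hn0 : (0 : ℝ) < n := by linarith
  have hM0 : 0 < M := by linarith
  have hg0 : 0 < (constC * M) * q := mul_pos (mul_pos constC_pos hM0) hq
  intro m
  induction m using Nat.strong_induction_on with
  | _ m ih =>
    intro A hm hAdm E' hE' hagree
    rcases Finset.eq_empty_or_nonempty E' with rfl | ⟨f₀, hf₀⟩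
    · simp only [Finset.card_empty, Nat.cast_zero]
      positivity
    by_cases hA : A = Finset.univ
    · -- everything is determined
      have h1 : E'.card ≤ 1 := by
        refine Finset.card_le_one.mpr fun a ha b hb => ?_
        funext z
        exact hagree a ha b hb z (hA ▸ Finset.mem_univ z)
      have hm0 : m = 0 := by
        rw [← hm, hA]
        simp
      rw [hm0, hA]
      simp only [pow_zero, Nat.sub_self, mul_one]
      exact_mod_cast h1
    · have hmem : ∀ f ∈ E', Function.Injective f ∧ ∀ a b, F.Adj a b → H.Adj (f a) (f b) := by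
        intro f hf
        have := mem_Emb.mp (hE' hf)
        exact ⟨this.1, this.2.1⟩
      obtain ⟨D, hAD, hne, hAdmD, hblock⟩ := exists_block hn hq hp hyp F hAdm hA
        (hmem f₀ hf₀).1 (hmem f₀ hf₀).2
      set B := D \ A with hB
      set P := patG F D B with hP
      set m' := (Finset.univ \ D).card with hm'
      have hBD : B ⊆ D := Finset.sdiff_subset
      have hsd : D \ B = A := Finset.sdiff_sdiff_eq_self hAD
      have hBcard : B.card + A.card = D.card := by
        rw [hB]
        exact Finset.card_sdiff_add_card_eq_card hAD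
      have hBne : 0 < B.card := Finset.card_pos.mpr hblock.ne
      have hcardA : m = m' + B.card := by
        rw [← hm, hm', Finset.card_univ_sdiff, Finset.card_univ_sdiff]
        have h1 : D.card ≤ Fintype.card Z := Finset.card_le_univ D
        omega
      have hedge : (inE F D).card = (inE F A).card + (tE P B).card := by
        have := inE_split F hBD (Finset.Subset.refl B)
        rwa [hsd] at this
      have hedgeU : (inE F D).card ≤ (inE F Finset.univ).card := by
        refine Finset.card_le_card fun e he => ?_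
        rcases mem_inE.mp he with ⟨h1, _⟩
        exact mem_inE.mpr ⟨h1, fun _ _ => Finset.mem_univ _⟩
      -- restriction to the block
      set r : (Z → V) → (B → V) := fun f z => f z.1 with hr
      set t := E'.image r with ht
      obtain ⟨G, hGs, hGinj, hGimg⟩ := Finset.exists_subset_injOn_image_eq_of_surjOn
        (f := r) (E' : Set (Z → V)) t (by
          intro c hc
          obtain ⟨f, hf, rfl⟩ := Finset.mem_image.mp (Finset.mem_coe.mp hc)
          exact ⟨f, hf, rfl⟩)
      have hGsub : G ⊆ E' := by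
        intro f hf
        exact Finset.mem_coe.mp (hGs (Finset.mem_coe.mpr hf))
      have htG : t.card = G.card := by
        rw [← hGimg]
        exact Finset.card_image_of_injOn hGinj
      have hKA : ∀ k ∈ Kof P B, k ∈ A := by
        intro k hk
        rcases mem_Kof.mp hk with ⟨h1, z, _, h3⟩
        have h4 : k ∈ D := h3.2.1
        by_contra h5
        exact h1 (Finset.mem_sdiff.mpr ⟨h4, h5⟩)
      have hblockcount := block_count hn hV hq hp hyp hblock hM hlog G
        (fun f hf => (hmem f (hGsub hf)).1)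
        (fun f hf u w huw => (hmem f (hGsub hf)).2 u w huw.1)
        (fun f hf f' hf' k hk => hagree f (hGsub hf) f' (hGsub hf') k (hKA k hk))
        (fun f hf f' hf' h => hGinj hf hf' (by
          funext z
          exact h z.1 z.2))
      -- the fibres
      have hfib : ∀ c ∈ t, ((E'.filter (fun f => r f = c)).card : ℝ)
          ≤ (n : ℝ) ^ m' * ((constC * M) * q) ^ ((inE F Finset.univ).card - (inE F D).card) := by
        intro c _
        refine ih m' (by omega) D rfl hAdmD _ ((Finset.filter_subset _ _).trans hE') ?_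
        intro f hf f' hf' z hz
        rcases Finset.mem_filter.mp hf with ⟨hf1, hf2⟩
        rcases Finset.mem_filter.mp hf' with ⟨hf1', hf2'⟩
        by_cases hzA : z ∈ A
        · exact hagree f hf1 f' hf1' z hzA
        · have hzB : z ∈ B := Finset.mem_sdiff.mpr ⟨hz, hzA⟩
          have h1 : r f = r f' := by rw [hf2, hf2']
          exact congrFun h1 ⟨z, hzB⟩
      have hsum : (E'.card : ℝ) = ∑ c ∈ t, ((E'.filter (fun f => r f = c)).card : ℝ) := by
        have := Finset.card_eq_sum_card_image r E'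
        exact_mod_cast this
      have hE'le : (E'.card : ℝ) ≤ (t.card : ℝ) *
          ((n : ℝ) ^ m' * ((constC * M) * q) ^ ((inE F Finset.univ).card - (inE F D).card)) := by
        rw [hsum, ← nsmul_eq_mul]
        exact Finset.sum_le_card_nsmul _ _ _ hfib
      have hexp : (inE F Finset.univ).card - (inE F A).card
          = (tE P B).card + ((inE F Finset.univ).card - (inE F D).card) := by omega
      rw [hexp, hcardA]
      rw [htG] at hE'le
      refine hE'le.trans ?_
      have hpos : 0 ≤ (n : ℝ) ^ m' * ((constC * M) * q) ^ ((inE F Finset.univ).card - (inE F D).card) := by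
        positivity
      calc (G.card : ℝ) * ((n : ℝ) ^ m' * ((constC * M) * q) ^ ((inE F Finset.univ).card - (inE F D).card))
          ≤ ((n : ℝ) ^ B.card * q ^ (tE P B).card * (constC * M) ^ (tE P B).card) *
            ((n : ℝ) ^ m' * ((constC * M) * q) ^ ((inE F Finset.univ).card - (inE F D).card)) :=
            mul_le_mul_of_nonneg_right hblockcount hpos
        _ = _ := by
            rw [pow_add, pow_add, mul_pow]
            ring

lemma inE_univ_card (F : SimpleGraph Z) : (inE F Finset.univ).card = numEdges F := by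
  unfold numEdges
  rw [← Set.ncard_coe_finset]
  congr 1
  ext e
  simp [mem_inE]

lemma inE_empty_card (F : SimpleGraph Z) : (inE F ∅).card = 0 := by
  rw [Finset.card_eq_zero]
  ext e
  simp only [mem_inE, Finset.notMem_empty, iff_false, not_and]
  intro _
  induction e using Sym2.ind with
  | _ a b =>
    intro h
    exact h a (Sym2.mem_mk_left _ _)

/-- The number of embeddings of an arbitrary graph. -/
theorem emb_count {M : ℝ} (hn : 1 ≤ n) (hV : Fintype.card V ≤ n) (hq : 0 < q)
    (hp : Real.exp 1 * q ≤ 1) (hyp : ∀ F : H.Subgraph, 1 ≤ expCopies n q F.coe) (hM : 1 ≤ M)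
    (hlog : Real.log n ≤ M) (F : SimpleGraph Z) :
    ((Emb F H Finset.univ).card : ℝ) ≤
      (n : ℝ) ^ (Fintype.card Z) * ((constC * M) * q) ^ numEdges F := by
  have h1 := chain_count hn hV hq hp hyp hM hlog F (Fintype.card Z) ∅ (by simp) (Or.inl rfl)
    (Emb F H Finset.univ) (Finset.Subset.refl _) (by simp)
  rw [inE_empty_card, inE_univ_card, Nat.sub_zero] at h1
  exact h1

end

end Vale.Agent.Lib.P064h
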