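import Vale.Agent.Lib.P064h.Chain

/-!
From the count of embeddings to the comparison with the expected count.
-/

namespace Vale.Agent.Lib.P064h

open Finset SimpleGraph Vale.Agent.Lib.P064
open scoped Classical Nat

set_option linter.unusedSectionVars false
set_option linter.unusedVariables false

universe u

variable {V : Type*} [Fintype V]

/-- A graph without isolated vertices has at least half as many edges as vertices. -/
lemma card_le_two_numEdges {Z : Type*} [Fintype Z] (F : SimpleGraph Z) (hno : ∀ z, ∃ y, F.Adj z y) :
    Fintype.card Z ≤ 2 * numEdges F := by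
  have h1 := sum_degX_le (inE F Finset.univ) (Finset.univ : Finset Z) (f := id) Function.injective_id
  rw [inE_univ_card] at h1
  refine le_trans ?_ h1
  rw [Finset.card_univ.symm, Finset.card_eq_sum_ones]
  refine Finset.sum_le_sum fun z _ => ?_
  obtain ⟨y, hy⟩ := hno z
  refine Finset.card_pos.mpr ⟨s(z, y), Finset.mem_filter.mpr ⟨?_, Sym2.mem_mk_left _ _⟩⟩
  exact mem_inE.mpr ⟨hy, fun _ _ => Finset.mem_univ _⟩

/-- The main count in terms of falling factorials, for all graphs. -/
theorem emb_all {H : SimpleGraph V} {n : ℕ} {q M : ℝ} (hn : 1 ≤ n) (hV : Fintype.card V ≤ n)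
    (hq : 0 < q) (hp : Real.exp 1 * q ≤ 1) (hyp : ∀ F : H.Subgraph, 1 ≤ expCopies n q F.coe)
    (hM : 1 ≤ M) (hlog : Real.log n ≤ M) (hLq : (9 * (constC * M)) * q ≤ 1) :
    ∀ (k : ℕ) (Z : Type u) [Fintype Z] (F : SimpleGraph Z), Fintype.card Z = k →
      ((Emb F H Finset.univ).card : ℝ) ≤
        (n.descFactorial k : ℝ) * ((9 * (constC * M)) * q) ^ numEdges F := by
  have hM0 : 0 < M := by linarith
  have hL0 : 0 < (9 * (constC * M)) * q := mul_pos (mul_pos (by norm_num) (mul_pos constC_pos hM0)) hq
  intro k
  induction k with
  | zero =>
    intro Z _ F hZ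
    have hE : IsEmpty Z := Fintype.card_eq_zero_iff.mp hZ
    have h1 : (Emb F H Finset.univ).card ≤ 1 := by
      refine Finset.card_le_one.mpr ?_
      intro a _ b _
      funext z
      exact hE.elim z
    have h2 : numEdges F = 0 := by
      unfold numEdges
      have : F.edgeSet = ∅ := by
        ext e
        induction e using Sym2.ind with
        | _ a b => exact hE.elim a
      rw [this, Set.ncard_empty]
    rw [h2]
    simp only [Nat.descFactorial_zero, Nat.cast_one, pow_zero, mul_one]
    exact_mod_cast h1
  | succ k ih =>
    intro Z _ F hZ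
    by_cases hno : ∀ z, ∃ y, F.Adj z y
    · -- no isolated vertices
      by_cases hk : k + 1 ≤ n
      · have h1 := emb_count hn hV hq hp hyp hM hlog F
        rw [hZ] at h1
        have h2 := pow_le_three_desc hk
        have h3 := card_le_two_numEdges F hno
        rw [hZ] at h3
        have h4 : (3 : ℝ) ^ (k + 1) ≤ 9 ^ numEdges F := by
          have : (9 : ℝ) ^ numEdges F = 3 ^ (2 * numEdges F) := by
            rw [pow_mul]; norm_num
          rw [this]
          exact pow_le_pow_right₀ (by norm_num) h3
        have hd : 0 ≤ (n.descFactorial (k + 1) : ℝ) := by positivity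
        have hC : 0 ≤ ((constC * M) * q) ^ numEdges F :=
          pow_nonneg (mul_pos (mul_pos constC_pos hM0) hq).le _
        calc ((Emb F H Finset.univ).card : ℝ)
            ≤ (n : ℝ) ^ (k + 1) * ((constC * M) * q) ^ numEdges F := h1
          _ ≤ (9 ^ numEdges F * (n.descFactorial (k + 1) : ℝ)) * ((constC * M) * q) ^ numEdges F := by
              refine mul_le_mul_of_nonneg_right ?_ hC
              exact h2.trans (mul_le_mul_of_nonneg_right h4 hd)
          _ = (n.descFactorial (k + 1) : ℝ) * ((9 * (constC * M)) * q) ^ numEdges F := by
              have : ((9 * (constC * M)) * q) ^ numEdges F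
                  = 9 ^ numEdges F * ((constC * M) * q) ^ numEdges F := by
                rw [← mul_pow]
                congr 1
                ring
              rw [this]
              ring
      · have h0 : Emb F H Finset.univ = ∅ := by
          refine Finset.eq_empty_of_forall_notMem fun f hf => ?_
          rcases mem_Emb.mp hf with ⟨h1, _, _⟩
          have := Fintype.card_le_of_injective f h1
          omega
        rw [h0]
        simp only [Finset.card_empty, Nat.cast_zero]
        positivity
    · -- an isolated vertex
      push Not at hno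
      obtain ⟨z₀, hz₀⟩ := hno
      set Z' := {z : Z // z ≠ z₀} with hZ'
      set F' : SimpleGraph Z' := F.comap Subtype.val with hF'
      have hZ'card : Fintype.card Z' = k := by
        have h1 : Fintype.card {z : Z // z ≠ z₀} = Fintype.card Z - 1 := by
          have h2 : Fintype.card {z : Z // z ≠ z₀} = (Finset.univ.erase z₀).card := by
            rw [Fintype.card_subtype]
            congr 1
            ext z
            simp
          rw [h2, Finset.card_erase_of_mem (Finset.mem_univ _), Finset.card_univ]
        rw [hZ, Nat.add_sub_cancel] at h1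
        convert h1 using 1
      have hih := ih Z' F' hZ'card
      -- the injection
      have hcount : (Emb F H Finset.univ).card ≤ (Emb F' H Finset.univ).card * (n - k) := by
        set T : Finset (Σ _ : (Z' → V), V) := (Emb F' H Finset.univ).sigma
          (fun g => Finset.univ \ (Finset.univ.image g)) with hT
        have h1 : (Emb F H Finset.univ).card ≤ T.card := by
          refine Finset.card_le_card_of_injOn (fun f => ⟨fun z => f z.val, f z₀⟩) ?_ ?_
          · intro f hf
            have hf' := Finset.mem_coe.mp hf
            rcases mem_Emb.mp hf' with ⟨h2, h3, _⟩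
            refine Finset.mem_coe.mpr (Finset.mem_sigma.mpr ⟨?_, ?_⟩)
            · refine mem_Emb.mpr ⟨?_, ?_, fun _ => Finset.mem_univ _⟩
              · intro a b hab
                exact Subtype.ext (h2 hab)
              · intro a b hab
                exact h3 _ _ hab
            · refine Finset.mem_sdiff.mpr ⟨Finset.mem_univ _, ?_⟩
              intro h4
              obtain ⟨a, _, ha⟩ := Finset.mem_image.mp h4
              exact a.property (h2 ha)
          · intro f _ g _ hfg
            simp only [Sigma.mk.injEq, heq_eq_eq] at hfg
            funext z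
            by_cases hz : z = z₀
            · rw [hz]; exact hfg.2
            · exact congrFun hfg.1 ⟨z, hz⟩
        refine h1.trans ?_
        rw [hT, Finset.card_sigma]
        have h2 : ∀ g ∈ Emb F' H Finset.univ,
            (Finset.univ \ (Finset.univ.image g)).card ≤ n - k := by
          intro g hg
          rcases mem_Emb.mp hg with ⟨h3, _, _⟩
          rw [Finset.card_sdiff_of_subset (Finset.subset_univ _), Finset.card_image_of_injective _ h3,
            Finset.card_univ, Finset.card_univ, hZ'card]
          omega
        calc ∑ g ∈ Emb F' H Finset.univ, (Finset.univ \ (Finset.univ.image g)).card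
            ≤ ∑ _g ∈ Emb F' H Finset.univ, (n - k) := Finset.sum_le_sum h2
          _ = _ := by rw [Finset.sum_const, smul_eq_mul]
      -- edges
      have hedges : numEdges F ≤ numEdges F' := by
        unfold numEdges
        have h1 : F.edgeSet ⊆ Sym2.map Subtype.val '' F'.edgeSet := by
          intro e he
          induction e using Sym2.ind with
          | _ a b =>
            have hab : F.Adj a b := he
            have ha : a ≠ z₀ := by
              rintro rfl
              exact hz₀ b hab
            have hb : b ≠ z₀ := by
              rintro rfl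
              exact hz₀ a hab.symm
            exact ⟨s(⟨a, ha⟩, ⟨b, hb⟩), hab, rfl⟩
        calc F.edgeSet.ncard ≤ (Sym2.map Subtype.val '' F'.edgeSet).ncard :=
              Set.ncard_le_ncard h1 ((Set.toFinite _).image _)
          _ ≤ F'.edgeSet.ncard := Set.ncard_image_le (Set.toFinite _)
      have hpow : ((9 * (constC * M)) * q) ^ numEdges F' ≤ ((9 * (constC * M)) * q) ^ numEdges F :=
        pow_le_pow_of_le_one hL0.le hLq hedges
      have hdesc : (n.descFactorial (k + 1) : ℝ) = ((n - k : ℕ) : ℝ) * (n.descFactorial k : ℝ) := by
        rw [Nat.descFactorial_succ]; push_cast; ring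
      rw [hdesc]
      have h5 : ((Emb F H Finset.univ).card : ℝ)
          ≤ ((Emb F' H Finset.univ).card : ℝ) * ((n - k : ℕ) : ℝ) := by
        exact_mod_cast hcount
      have h6 : (0 : ℝ) ≤ ((n - k : ℕ) : ℝ) := by positivity
      have h7 := mul_le_mul_of_nonneg_left hih h6
      have h8 : (0 : ℝ) ≤ ((n - k : ℕ) : ℝ) * (n.descFactorial k : ℝ) := by positivity
      calc ((Emb F H Finset.univ).card : ℝ)
          ≤ ((Emb F' H Finset.univ).card : ℝ) * ((n - k : ℕ) : ℝ) := h5
        _ = ((n - k : ℕ) : ℝ) * ((Emb F' H Finset.univ).card : ℝ) := by ring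
        _ ≤ ((n - k : ℕ) : ℝ) * ((n.descFactorial k : ℝ) * ((9 * (constC * M)) * q) ^ numEdges F') := h7
        _ = ((n - k : ℕ) : ℝ) * (n.descFactorial k : ℝ) * ((9 * (constC * M)) * q) ^ numEdges F' := by ring
        _ ≤ ((n - k : ℕ) : ℝ) * (n.descFactorial k : ℝ) * ((9 * (constC * M)) * q) ^ numEdges F :=
            mul_le_mul_of_nonneg_left hpow h8

/-- The constant of the main theorem. -/
noncomputable def constLog : ℝ := 27 * constC

lemma constLog_pos : 0 < constLog := by
  unfold constLog
  have := constC_pos
  positivity

lemma log_two_ge : (1 : ℝ) / 3 ≤ Real.log 2 := by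
  have := Real.log_two_gt_d9
  linarith

/-- The comparison with the expected count for all graphs, with a logarithmic loss. -/
theorem copyCount_le_expCopies_log {H : SimpleGraph V} {n : ℕ} {q : ℝ} (hn : 2 ≤ n)
    (hV : Fintype.card V ≤ n) (hq : 0 < q) (hyp : ∀ F : H.Subgraph, 1 ≤ expCopies n q F.coe)
    {Z : Type u} [Fintype Z] (F : SimpleGraph Z) :
    (H.copyCount F : ℝ) ≤ expCopies n (min 1 (constLog * Real.log n * q)) F := by
  unfold expCopies
  refine copyCount_le_of_emb H F n ?_
  have hn' : (2 : ℝ) ≤ n := by exact_mod_cast hn
  have hlogn : Real.log 2 ≤ Real.log n := Real.log_le_log (by norm_num) hn'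
  have hlog0 : 0 < Real.log n := by linarith [log_two_ge]
  set M := 3 * Real.log n with hMdef
  have hM : 1 ≤ M := by
    have := log_two_ge
    rw [hMdef]
    linarith
  have hlog : Real.log n ≤ M := by
    rw [hMdef]
    linarith
  have hL : constLog * Real.log n = 9 * (constC * M) := by
    rw [hMdef]
    unfold constLog
    ring
  by_cases hLq : constLog * Real.log n * q ≤ 1
  · rw [min_eq_right hLq]
    rw [hL] at hLq ⊢
    have hp : Real.exp 1 * q ≤ 1 := by
      have h1 : Real.exp 1 ≤ 9 * (constC * M) := by
        have h2 := one_le_constC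
        have h3 : 1 ≤ constC * M := by nlinarith
        linarith [Real.exp_one_lt_three]
      nlinarith
    exact emb_all (by omega) hV hq hp hyp hM hlog hLq _ Z F rfl
  · rw [min_eq_left (le_of_not_ge hLq)]
    simp only [one_pow, mul_one]
    exact_mod_cast emb_le_desc hV F

end Vale.Agent.Lib.P064h
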