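import Vale.Agent.Lib.P064h.Prim

/-!
The steps of high cost in a greedy order.
-/

namespace Vale.Agent.Lib.P064h

open Finset
open scoped Classical

set_option linter.unusedSectionVars false
set_option linter.unusedVariables false

variable {Z V : Type*} [Fintype Z]

/-- The edges of `P` that contain a vertex of `W`. -/
noncomputable def tE (P : SimpleGraph Z) (W : Finset Z) : Finset (Sym2 Z) :=
  (Finset.univ : Finset (Sym2 Z)).filter (fun e => e ∈ P.edgeSet ∧ ∃ v ∈ W, v ∈ e)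

lemma mem_tE {P : SimpleGraph Z} {W : Finset Z} {e : Sym2 Z} :
    e ∈ tE P W ↔ e ∈ P.edgeSet ∧ ∃ v ∈ W, v ∈ e := by
  simp [tE]

lemma tE_mono (P : SimpleGraph Z) {W W' : Finset Z} (h : W ⊆ W') : tE P W ⊆ tE P W' := by
  intro e he
  rcases mem_tE.mp he with ⟨h1, v, hv, hve⟩
  exact mem_tE.mpr ⟨h1, v, h hv, hve⟩

/-- The placed vertices of high weight. -/
noncomputable def Qs (T₀ Y : Finset Z) (dg : Z → ℕ) (τ : ℕ) : Finset Z :=
  (T₀ ∪ Y).filter (fun r => τ ≤ dg r)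

/-- The vertices of low weight reached at a step of high cost. -/
noncomputable def LEs (Y : Finset Z) (dg δ : Z → ℕ) (τ : ℕ) : Finset Z :=
  Y.filter (fun z => dg z < τ ∧ τ ≤ δ z)

/-- The low vertices placed after the vertex `z` of `LE` and before the next vertex of `LE`. -/
noncomputable def Ls (Y : Finset Z) (dg tm : Z → ℕ) (τ : ℕ) (LE : Finset Z) (z : Z) : Finset Z :=
  Y.filter (fun w => dg w < τ ∧ tm z ≤ tm w ∧ ∀ z' ∈ LE, tm z < tm z' → tm w < tm z')

section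
variable {P : SimpleGraph Z} {T₀ Y : Finset Z} {dg tm δ : Z → ℕ} {par : Z → Z} {τ : ℕ}

lemma mem_Ls {LE : Finset Z} {z w : Z} : w ∈ Ls Y dg tm τ LE z ↔
    w ∈ Y ∧ dg w < τ ∧ tm z ≤ tm w ∧ ∀ z' ∈ LE, tm z < tm z' → tm w < tm z' := by
  simp [Ls]

lemma mem_LEs {z : Z} : z ∈ LEs Y dg δ τ ↔ z ∈ Y ∧ dg z < τ ∧ τ ≤ δ z := by
  simp [LEs]

lemma self_mem_Ls {z : Z} (hz : z ∈ LEs Y dg δ τ) : z ∈ Ls Y dg tm τ (LEs Y dg δ τ) z := by
  rcases mem_LEs.mp hz with ⟨h1, h2, _⟩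
  exact mem_Ls.mpr ⟨h1, h2, le_refl _, fun _ _ h => h⟩

lemma Ls_disj (h : PrimOrder P T₀ Y dg tm δ par) {z z' w : Z} (hz : z ∈ LEs Y dg δ τ)
    (hz' : z' ∈ LEs Y dg δ τ) (hne : z ≠ z')
    (h1 : w ∈ Ls Y dg tm τ (LEs Y dg δ τ) z) (h2 : w ∈ Ls Y dg tm τ (LEs Y dg δ τ) z') : False := by
  rcases mem_Ls.mp h1 with ⟨_, _, a1, a2⟩
  rcases mem_Ls.mp h2 with ⟨_, _, b1, b2⟩
  have hzY := (mem_LEs.mp hz).1
  have hzY' := (mem_LEs.mp hz').1
  rcases lt_trichotomy (tm z) (tm z') with hlt | heq | hgt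
  · have := a2 z' hz' hlt
    omega
  · exact hne (h.inj z hzY z' hzY' heq)
  · have := b2 z hz hgt
    omega

/-- The set `Ls` is closed among low vertices. -/
lemma Ls_closed (h : PrimOrder P T₀ Y dg tm δ par) (hdisj : Disjoint T₀ Y) {z w w' : Z}
    (hz : z ∈ LEs Y dg δ τ) (hw : w ∈ Ls Y dg tm τ (LEs Y dg δ τ) z) (hadj : P.Adj w w')
    (hw' : w' ∈ T₀ ∪ Y) (hlow : dg w' < τ) : w' ∈ Ls Y dg tm τ (LEs Y dg δ τ) z := by
  rcases mem_Ls.mp hw with ⟨a1, a2, a3, a4⟩
  rcases mem_LEs.mp hz with ⟨b1, b2, b3⟩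
  have key : ¬ (w' ∈ T₀ ∨ (w' ∈ Y ∧ tm w' < tm z)) := by
    intro hr
    have := h.least z b1 w' hr w a1 a3 hadj.symm
    omega
  have hw'Y : w' ∈ Y := by
    rcases Finset.mem_union.mp hw' with h1 | h1
    · exact absurd (Or.inl h1) key
    · exact h1
  have h1 : tm z ≤ tm w' := by
    by_contra hc
    exact key (Or.inr ⟨hw'Y, by omega⟩)
  refine mem_Ls.mpr ⟨hw'Y, hlow, h1, ?_⟩
  intro z' hz' hlt
  by_contra hc
  rcases mem_LEs.mp hz' with ⟨c1, c2, c3⟩
  have := h.least z' c1 w (Or.inr ⟨a1, a4 z' hz' hlt⟩) w' hw'Y (by omega) hadj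
  omega

/-- The tree edges are distinct. -/
lemma tree_edge_inj (h : PrimOrder P T₀ Y dg tm δ par) (hdisj : Disjoint T₀ Y) {a b : Z}
    (ha : a ∈ Y) (hb : b ∈ Y) (hab : s(a, par a) = s(b, par b)) : a = b := by
  rcases Sym2.eq_iff.mp hab with ⟨h1, _⟩ | ⟨h1, h2⟩
  · exact h1
  · -- `a = par b` and `par a = b`
    exfalso
    have h3 := h.par_mem a ha
    have h4 := h.par_mem b hb
    rw [h2] at h3
    rw [← h1] at h4
    rcases h3 with h3 | ⟨_, h3⟩
    · exact (Finset.disjoint_left.mp hdisj h3) hb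
    · rcases h4 with h4 | ⟨_, h4⟩
      · exact (Finset.disjoint_left.mp hdisj h4) ha
      · omega

/-- The main structure result on the steps of high cost. -/
theorem threshold_edges (h : PrimOrder P T₀ Y dg tm δ par) (hdisj : Disjoint T₀ Y)
    (hdeg2 : ∀ z ∈ Y, ∃ w, w ≠ par z ∧ P.Adj z w)
    (hall : ∀ z ∈ Y, ∀ w, P.Adj z w → w ∈ T₀ ∪ Y) (τ : ℕ) :
    ∃ W ⊆ Y, (∀ w ∈ W, ∀ w', P.Adj w w' → w' ∈ W ∨ w' ∈ Qs T₀ Y dg τ) ∧
      (LEs Y dg δ τ).card ≤ (tE P W).card ∧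
      (Y.filter (fun z => dg z < τ)).card + (LEs Y dg δ τ).card ≤ (tE P Y).card := by
  set LE := LEs Y dg δ τ with hLE
  set L := Ls Y dg tm τ LE with hL
  set W := LE.biUnion L with hW
  have hLsub : ∀ z, L z ⊆ Y := fun z => Finset.filter_subset _ _
  have hWsub : W ⊆ Y := by
    intro w hw
    obtain ⟨z, _, hz⟩ := Finset.mem_biUnion.mp hw
    exact hLsub z hz
  have hclosed : ∀ w ∈ W, ∀ w', P.Adj w w' → w' ∈ W ∨ w' ∈ Qs T₀ Y dg τ := by
    intro w hw w' hadj
    obtain ⟨z, hz, hwz⟩ := Finset.mem_biUnion.mp hw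
    have hw' := hall w (hLsub z hwz) w' hadj
    by_cases hlow : dg w' < τ
    · left
      exact Finset.mem_biUnion.mpr ⟨z, hz, Ls_closed h hdisj hz hwz hadj hw' hlow⟩
    · right
      exact Finset.mem_filter.mpr ⟨hw', by omega⟩
  -- choose the extra edges
  have hex : ∀ z ∈ LE, ∃ a ∈ L z, ∃ b, b ≠ par a ∧ P.Adj a b ∧ ∀ w ∈ L z, tm w ≤ tm a := by
    intro z hz
    obtain ⟨a, ha, hmax⟩ := Finset.exists_max_image (L z) tm ⟨z, self_mem_Ls hz⟩
    obtain ⟨b, hb1, hb2⟩ := hdeg2 a (hLsub z ha)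
    exact ⟨a, ha, b, hb1, hb2, hmax⟩
  choose! a ha b hb1 hb2 hmax using hex
  set ee : Z → Sym2 Z := fun z => s(a z, b z) with hee
  have heeinj : Set.InjOn ee (LE : Set Z) := by
    intro z hz z' hz' hzz
    by_contra hne
    have hz1 : z ∈ LE := hz
    have hz2 : z' ∈ LE := hz'
    rcases Sym2.eq_iff.mp hzz with ⟨h1, _⟩ | ⟨h1, h2⟩
    · have h3 := ha z' hz2
      rw [← h1] at h3
      exact Ls_disj h hz1 hz2 hne (ha z hz1) h3
    · -- `a z = b z'` and `b z = a z'`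
      have h3 := ha z' hz2
      rw [← h2] at h3
      have h4 := ha z hz1
      have h5 := hb2 z hz1
      have h6 := hall _ (hLsub z h4) _ h5
      have h7 : dg (b z) < τ := (mem_Ls.mp h3).2.1
      exact Ls_disj h hz1 hz2 hne (Ls_closed h hdisj hz1 h4 h5 h6 h7) h3
  have hLEcard : (LE.image ee).card = LE.card := Finset.card_image_of_injOn heeinj
  have hee_W : LE.image ee ⊆ tE P W := by
    intro e he
    obtain ⟨z, hz, rfl⟩ := Finset.mem_image.mp he
    exact mem_tE.mpr ⟨hb2 z hz, a z, Finset.mem_biUnion.mpr ⟨z, hz, ha z hz⟩, Sym2.mem_mk_left _ _⟩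
  refine ⟨W, hWsub, hclosed, ?_, ?_⟩
  · rw [← hLEcard]
    exact Finset.card_le_card hee_W
  · -- tree edges on the low vertices
    set Ylow := Y.filter (fun z => dg z < τ) with hYlow
    set tr : Z → Sym2 Z := fun z => s(z, par z) with htr
    have htrinj : Set.InjOn tr (Ylow : Set Z) := by
      intro x hx y hy hxy
      exact tree_edge_inj h hdisj (Finset.mem_filter.mp hx).1 (Finset.mem_filter.mp hy).1 hxy
    have htrcard : (Ylow.image tr).card = Ylow.card := Finset.card_image_of_injOn htrinj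
    have hdisj' : Disjoint (Ylow.image tr) (LE.image ee) := by
      rw [Finset.disjoint_left]
      intro e he1 he2
      obtain ⟨u, hu, rfl⟩ := Finset.mem_image.mp he1
      obtain ⟨z, hz, hzu⟩ := Finset.mem_image.mp he2
      rcases Finset.mem_filter.mp hu with ⟨huY, hulow⟩
      rcases Sym2.eq_iff.mp hzu with ⟨h1, h2⟩ | ⟨h1, h2⟩
      · exact hb1 z hz (by rw [h2, h1])
      · -- `a z = par u`, `b z = u`
        have h3 := ha z hz
        have h4 := hb2 z hz
        have h5 := hall _ (hLsub z h3) _ h4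
        have h6 : dg (b z) < τ := by rw [h2]; exact hulow
        have h7 := Ls_closed h hdisj hz h3 h4 h5 h6
        have h8 := hmax z hz _ h7
        rw [h2] at h8
        rcases h.par_mem u huY with h9 | ⟨_, h9⟩
        · rw [← h1] at h9
          exact (Finset.disjoint_left.mp hdisj h9) (hLsub z h3)
        · rw [← h1] at h9
          omega
    have hsub : Ylow.image tr ∪ LE.image ee ⊆ tE P Y := by
      intro e he
      rcases Finset.mem_union.mp he with he | he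
      · obtain ⟨u, hu, rfl⟩ := Finset.mem_image.mp he
        have huY := (Finset.mem_filter.mp hu).1
        exact mem_tE.mpr ⟨(h.par_adj u huY).symm, u, huY, Sym2.mem_mk_left _ _⟩
      · exact tE_mono P hWsub (hee_W he)
    have := Finset.card_le_card hsub
    rw [Finset.card_union_of_disjoint hdisj', htrcard, hLEcard] at this
    exact this

/-- The steps of high cost: each enters a high vertex or a vertex of `LE`. -/
lemma high_card_le (τ : ℕ) :
    (Y.filter (fun z => τ ≤ δ z)).card ≤ (Qs T₀ Y dg τ).card + (LEs Y dg δ τ).card := by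
  have hsub : Y.filter (fun z => τ ≤ δ z) ⊆ Qs T₀ Y dg τ ∪ LEs Y dg δ τ := by
    intro z hz
    rcases Finset.mem_filter.mp hz with ⟨h1, h2⟩
    by_cases h3 : τ ≤ dg z
    · exact Finset.mem_union_left _ (Finset.mem_filter.mpr ⟨Finset.mem_union_right _ h1, h3⟩)
    · exact Finset.mem_union_right _ (mem_LEs.mpr ⟨h1, by omega, h2⟩)
  exact (Finset.card_le_card hsub).trans (Finset.card_union_le _ _)

end

end Vale.Agent.Lib.P064h
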