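import Vale.Agent.Lib.P064.Forest
import Vale.Agent.Lib.P064h.Thresh

/-!
What the hypothesis on all subgraphs gives: a bound for the automorphisms of every subgraph.
-/

namespace Vale.Agent.Lib.P064h

open Finset SimpleGraph Vale.Agent.Lib.P064
open scoped Classical Nat

set_option linter.unusedSectionVars false
set_option linter.unusedVariables false

variable {V : Type*} [Fintype V] {T : Type*} [Fintype T]

lemma numEdges_congr {A B : Type*} {G : SimpleGraph A} {G' : SimpleGraph B} (e : G ≃g G') :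
    numEdges G = numEdges G' := by
  unfold numEdges
  rw [← Nat.card_coe_set_eq, ← Nat.card_coe_set_eq]
  exact Nat.card_congr e.mapEdgeSet

/-- Conjugation by an isomorphism. -/
noncomputable def autConj {A B : Type*} {G : SimpleGraph A} {G' : SimpleGraph B} (e : G ≃g G') :
    (G ≃g G) ≃ (G' ≃g G') where
  toFun α := (e.symm.trans α).trans e
  invFun β := (e.trans β).trans e.symm
  left_inv α := by
    ext x
    simp
  right_inv β := by
    ext x
    simp

lemma aut_finite {A : Type*} [Finite A] (G : SimpleGraph A) : Finite (G ≃g G) :=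
  Finite.of_injective (fun α => α.toEquiv) RelIso.toEquiv_injective

/-- The hypothesis bounds the number of automorphisms of every copy inside `H`. -/
theorem aut_le {H : SimpleGraph V} {n : ℕ} {q : ℝ} (hq : 0 < q)
    (hyp : ∀ F : H.Subgraph, 1 ≤ expCopies n q F.coe) (G : SimpleGraph T) (f : Copy G H) :
    (Nat.card (G ≃g G) : ℝ) ≤ (n : ℝ) ^ (Fintype.card T) * q ^ (numEdges G) := by
  have hJ := hyp f.toSubgraph
  unfold expCopies at hJ
  let _ : Fintype f.toSubgraph.verts := Fintype.ofEquiv T f.isoToSubgraph.toEquiv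
  have h2 := labelled_eq (⊤ : SimpleGraph (Fin n)) f.toSubgraph.coe
  rw [labelled_top] at h2
  have hc : Fintype.card f.toSubgraph.verts = Fintype.card T :=
    Fintype.card_congr f.isoToSubgraph.toEquiv.symm
  rw [hc] at h2
  have hE : numEdges f.toSubgraph.coe = numEdges G := (numEdges_congr f.isoToSubgraph).symm
  rw [hE] at hJ
  have hA : ∀ inst : Fintype (f.toSubgraph.coe ≃g f.toSubgraph.coe),
      @Fintype.card _ inst = Nat.card (G ≃g G) := by
    intro inst
    rw [← @Nat.card_eq_fintype_card _ inst]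
    exact (Nat.card_congr (autConj f.isoToSubgraph)).symm
  rw [hA] at h2
  set c : ℝ := ((⊤ : SimpleGraph (Fin n)).copyCount f.toSubgraph.coe : ℝ) with hcdef
  set A : ℝ := (Nat.card (G ≃g G) : ℝ) with hAdef
  have hA0 : 0 ≤ A := Nat.cast_nonneg _
  have hd : ((n.descFactorial (Fintype.card T) : ℕ) : ℝ) = c * A := by
    rw [hcdef, hAdef]
    exact_mod_cast h2
  have hdle : ((n.descFactorial (Fintype.card T) : ℕ) : ℝ) ≤ (n : ℝ) ^ (Fintype.card T) := by
    exact_mod_cast Nat.descFactorial_le_pow n _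
  have hqe : 0 ≤ q ^ numEdges G := by positivity
  calc A = A * 1 := (mul_one A).symm
    _ ≤ A * (c * q ^ numEdges G) := mul_le_mul_of_nonneg_left hJ hA0
    _ = (c * A) * q ^ numEdges G := by ring
    _ ≤ (n : ℝ) ^ (Fintype.card T) * q ^ numEdges G := by
        rw [← hd]
        exact mul_le_mul_of_nonneg_right hdle hqe

/-- A lower bound for the number of edges. -/
lemma le_numEdges {G : SimpleGraph T} (ι : T → V) (X : Finset (Sym2 V))
    (h : ∀ e ∈ X, ∃ e' ∈ G.edgeSet, Sym2.map ι e' = e) : X.card ≤ numEdges G := by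
  unfold numEdges
  have h1 : (X : Set (Sym2 V)) ⊆ Sym2.map ι '' G.edgeSet := by
    intro e he
    obtain ⟨e', he', rfl⟩ := h e he
    exact ⟨e', he', rfl⟩
  calc X.card = (X : Set (Sym2 V)).ncard := (Set.ncard_coe_finset X).symm
    _ ≤ (Sym2.map ι '' G.edgeSet).ncard := Set.ncard_le_ncard h1 (Set.toFinite _)
    _ ≤ G.edgeSet.ncard := Set.ncard_image_le (Set.toFinite _)

/-- The weak form of the hypothesis: every set of edges of `H` on a vertex set `S`. -/
theorem weak_hyp {H : SimpleGraph V} {n : ℕ} {q : ℝ} (hq : 0 < q) (hq1 : q ≤ 1)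
    (hyp : ∀ F : H.Subgraph, 1 ≤ expCopies n q F.coe) (S : Finset V) (X : Finset (Sym2 V))
    (hX : ∀ e ∈ X, e ∈ H.edgeSet) (hS : ∀ e ∈ X, ∀ v ∈ e, v ∈ S) :
    1 ≤ (n : ℝ) ^ S.card * q ^ X.card := by
  let G : SimpleGraph S :=
    { Adj := fun a b => s(a.1, b.1) ∈ X
      symm := ⟨fun a b h => by rwa [Sym2.eq_swap]⟩
      loopless := ⟨fun a h => H.loopless.irrefl a.1 (hX _ h)⟩ }
  have hG : ∀ a b : S, G.Adj a b ↔ s(a.1, b.1) ∈ X := fun _ _ => Iff.rfl
  let f : Copy G H := ⟨⟨Subtype.val, fun {a b} h => hX _ h⟩, Subtype.val_injective⟩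
  have h1 := aut_le hq hyp G f
  have h2 : 1 ≤ Nat.card (G ≃g G) := by
    have := aut_finite G
    have : Nonempty (G ≃g G) := ⟨Iso.refl⟩
    exact Nat.card_pos
  have h3 : (1 : ℝ) ≤ (Nat.card (G ≃g G) : ℝ) := by exact_mod_cast h2
  have h4 : X.card ≤ numEdges G := by
    refine le_numEdges (G := G) Subtype.val X ?_
    intro e he
    induction e using Sym2.ind with
    | _ a b =>
      have ha : a ∈ S := hS _ he a (Sym2.mem_mk_left _ _)
      have hb : b ∈ S := hS _ he b (Sym2.mem_mk_right _ _)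
      exact ⟨s(⟨a, ha⟩, ⟨b, hb⟩), he, rfl⟩
  have h5 : q ^ numEdges G ≤ q ^ X.card := pow_le_pow_of_le_one hq.le hq1 h4
  have h6 : Fintype.card S = S.card := Fintype.card_coe S
  rw [h6] at h1
  have hn : (0 : ℝ) ≤ (n : ℝ) ^ S.card := by positivity
  linarith [mul_le_mul_of_nonneg_left h5 hn]

variable {Z : Type*} [Fintype Z] {ι : Type*} [Fintype ι]

/-- The vertices outside `B` attached to `B`. -/
noncomputable def Kof (P : SimpleGraph Z) (B : Finset Z) : Finset Z :=
  (Finset.univ : Finset Z).filter (fun u => u ∉ B ∧ ∃ z ∈ B, P.Adj u z)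

lemma mem_Kof {P : SimpleGraph Z} {B : Finset Z} {u : Z} :
    u ∈ Kof P B ↔ u ∉ B ∧ ∃ z ∈ B, P.Adj u z := by
  simp [Kof]

/-- The adjacency of the graph with `r` petals. -/
def petAdj (P : SimpleGraph Z) (B : Finset Z) (K : Finset Z) :
    (K ⊕ (ι × B)) → (K ⊕ (ι × B)) → Prop
  | Sum.inl _, Sum.inl _ => False
  | Sum.inl k, Sum.inr x => P.Adj k.1 x.2.1
  | Sum.inr x, Sum.inl k => P.Adj x.2.1 k.1
  | Sum.inr x, Sum.inr y => x.1 = y.1 ∧ P.Adj x.2.1 y.2.1

/-- The graph with petals. -/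
def petG (P : SimpleGraph Z) (B : Finset Z) (K : Finset Z) : SimpleGraph (K ⊕ (ι × B)) where
  Adj := petAdj P B K
  symm := ⟨by
    rintro (a | a) (b | b) h
    · exact h
    · exact (show P.Adj a.1 b.2.1 from h).symm
    · exact (show P.Adj a.2.1 b.1 from h).symm
    · exact ⟨(show a.1 = b.1 ∧ P.Adj a.2.1 b.2.1 from h).1.symm,
        (show a.1 = b.1 ∧ P.Adj a.2.1 b.2.1 from h).2.symm⟩⟩
  loopless := ⟨by
    rintro (a | a) h
    · exact h
    · exact P.loopless.irrefl _ (show a.1 = a.1 ∧ P.Adj a.2.1 a.2.1 from h).2⟩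

/-- The permutations of the petals act on the graph with petals. -/
def petAut (P : SimpleGraph Z) (B : Finset Z) (K : Finset Z) (π : Equiv.Perm ι) :
    (petG (ι := ι) P B K) ≃g (petG (ι := ι) P B K) where
  toEquiv := Equiv.sumCongr (Equiv.refl _) (Equiv.prodCongr π (Equiv.refl _))
  map_rel_iff' := by
    rintro (a | a) (b | b)
    · exact Iff.rfl
    · exact Iff.rfl
    · exact Iff.rfl
    · constructor
      · rintro ⟨h1, h2⟩
        exact ⟨π.injective h1, h2⟩
      · rintro ⟨h1, h2⟩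
        exact ⟨congrArg π h1, h2⟩

lemma factorial_le_aut (P : SimpleGraph Z) (B : Finset Z) (K : Finset Z) (hB : B.Nonempty) :
    (Fintype.card ι)! ≤ Nat.card ((petG (ι := ι) P B K) ≃g (petG (ι := ι) P B K)) := by
  have := aut_finite (petG (ι := ι) P B K)
  rw [← Fintype.card_perm, ← Nat.card_eq_fintype_card]
  refine Nat.card_le_card_of_injective (petAut P B K) ?_
  intro π π' h
  ext i
  obtain ⟨z, hz⟩ := hB
  have h1 := congrArg (fun α => α (Sum.inr (i, ⟨z, hz⟩))) h
  simp only [petAut] at h1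
  have h2 : (Sum.inr (π i, (⟨z, hz⟩ : B)) : K ⊕ (ι × B)) = Sum.inr (π' i, ⟨z, hz⟩) := h1
  have h3 := Sum.inr.inj h2
  exact congrArg Prod.fst h3

/-- The edges of the images. -/
noncomputable def imgE (P : SimpleGraph Z) (f : Z → V) (W : Finset Z) : Finset (Sym2 V) :=
  (tE P W).image (Sym2.map f)

lemma card_imgE (P : SimpleGraph Z) {f : Z → V} (hf : Function.Injective f) (W : Finset Z) :
    (imgE P f W).card = (tE P W).card :=
  Finset.card_image_of_injective _ (Sym2.map.injective hf)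

lemma imgE_edge {H : SimpleGraph V} {P : SimpleGraph Z} {f : Z → V}
    (hadj : ∀ u w, P.Adj u w → H.Adj (f u) (f w)) {W : Finset Z} {e : Sym2 V}
    (he : e ∈ imgE P f W) : e ∈ H.edgeSet := by
  obtain ⟨e', he', rfl⟩ := Finset.mem_image.mp he
  rcases mem_tE.mp he' with ⟨h1, _⟩
  induction e' using Sym2.ind with
  | _ a b => exact hadj a b h1

/-- The bound for petals. -/
theorem petal_bound {H : SimpleGraph V} {n : ℕ} {q : ℝ} (hn : 1 ≤ n) (hq : 0 < q) (hq1 : q ≤ 1)
    (hyp : ∀ F : H.Subgraph, 1 ≤ expCopies n q F.coe) (P : SimpleGraph Z) (B : Finset Z)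
    (hB : B.Nonempty) (htouch : ∀ u w, P.Adj u w → u ∈ B ∨ w ∈ B) (fam : ι → Z → V)
    (hinj : ∀ i, Function.Injective (fam i)) (hadj : ∀ i u w, P.Adj u w → H.Adj (fam i u) (fam i w))
    (hag : ∀ i i', ∀ k ∈ Kof P B, fam i k = fam i' k)
    (hdj : ∀ i i', i ≠ i' → ∀ z ∈ B, ∀ z' ∈ B, fam i z ≠ fam i' z') :
    ((Fintype.card ι)! : ℝ) ≤ (n : ℝ) ^ (Kof P B).card *
      ((n : ℝ) ^ B.card * q ^ (tE P B).card) ^ (Fintype.card ι) := by
  have hn' : (1 : ℝ) ≤ n := by exact_mod_cast hn
  by_cases hι : IsEmpty ι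
  · have h0 : Fintype.card ι = 0 := Fintype.card_eq_zero
    rw [h0]
    simp only [Nat.factorial_zero, Nat.cast_one, pow_zero, mul_one]
    exact one_le_pow₀ hn'
  rw [not_isEmpty_iff] at hι
  obtain ⟨i₀⟩ := hι
  set K := Kof P B with hK
  have hKB : ∀ k ∈ K, k ∉ B := fun k hk => (mem_Kof.mp hk).1
  -- endpoints
  have hends : ∀ u w, P.Adj u w → u ∉ B → u ∈ K := by
    intro u w h hu
    rcases htouch u w h with h1 | h1
    · exact absurd h1 hu
    · exact mem_Kof.mpr ⟨hu, w, h1, h⟩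
  let ιm : (K ⊕ (ι × B)) → V := Sum.elim (fun k => fam i₀ k.1) (fun x => fam x.1 x.2.1)
  have hιinj : Function.Injective ιm := by
    rintro (a | a) (b | b) h
    · have h1 : fam i₀ a.1 = fam i₀ b.1 := h
      exact congrArg Sum.inl (Subtype.ext (hinj i₀ h1))
    · exfalso
      have h1 : fam i₀ a.1 = fam b.1 b.2.1 := h
      rw [hag i₀ b.1 a.1 a.2] at h1
      have h2 := hinj _ h1
      exact hKB a.1 a.2 (h2 ▸ b.2.2)
    · exfalso
      have h1 : fam a.1 a.2.1 = fam i₀ b.1 := h
      rw [hag i₀ a.1 b.1 b.2] at h1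
      have h2 := hinj _ h1
      exact hKB b.1 b.2 (h2 ▸ a.2.2)
    · have h1 : fam a.1 a.2.1 = fam b.1 b.2.1 := h
      by_cases hab : a.1 = b.1
      · have h2 : a.2.1 = b.2.1 := by
          rw [hab] at h1
          exact hinj _ h1
        have h3 : a.2 = b.2 := Subtype.ext h2
        exact congrArg Sum.inr (Prod.ext hab h3)
      · exact absurd h1 (hdj _ _ hab _ a.2.2 _ b.2.2)
  have hιadj : ∀ {a b}, (petG (ι := ι) P B K).Adj a b → H.Adj (ιm a) (ιm b) := by
    rintro (a | a) (b | b) h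
    · exact h.elim
    · have h1 : P.Adj a.1 b.2.1 := h
      show H.Adj (fam i₀ a.1) (fam b.1 b.2.1)
      rw [hag i₀ b.1 a.1 a.2]
      exact hadj _ _ _ h1
    · have h1 : P.Adj a.2.1 b.1 := h
      show H.Adj (fam a.1 a.2.1) (fam i₀ b.1)
      rw [hag i₀ a.1 b.1 b.2]
      exact hadj _ _ _ h1
    · have h1 : a.1 = b.1 ∧ P.Adj a.2.1 b.2.1 := h
      show H.Adj (fam a.1 a.2.1) (fam b.1 b.2.1)
      rw [← h1.1]
      exact hadj _ _ _ h1.2
  let f : Copy (petG (ι := ι) P B K) H := ⟨⟨ιm, hιadj⟩, hιinj⟩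
  have h1 := aut_le hq hyp (petG (ι := ι) P B K) f
  have h2 := factorial_le_aut (ι := ι) P B K hB
  have h3 : ((Fintype.card ι)! : ℝ) ≤ (Nat.card ((petG (ι := ι) P B K) ≃g (petG (ι := ι) P B K)) : ℝ) := by
    exact_mod_cast h2
  -- the number of vertices
  have hcard : Fintype.card (K ⊕ (ι × B)) = K.card + Fintype.card ι * B.card := by
    rw [Fintype.card_sum, Fintype.card_prod, Fintype.card_coe, Fintype.card_coe]
  rw [hcard] at h1
  -- the number of edges
  set X : Finset (Sym2 V) := Finset.univ.biUnion (fun i => imgE P (fam i) B) with hX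
  have hXcard : X.card = Fintype.card ι * (tE P B).card := by
    rw [hX, Finset.card_biUnion]
    · rw [Finset.sum_congr rfl (fun i _ => card_imgE P (hinj i) B), Finset.sum_const, smul_eq_mul,
        Finset.card_univ]
    · intro i _ i' _ hii
      rw [Function.onFun, Finset.disjoint_left]
      intro e he he'
      obtain ⟨e₁, he₁, rfl⟩ := Finset.mem_image.mp he
      obtain ⟨e₂, he₂, he₂'⟩ := Finset.mem_image.mp he'
      rcases mem_tE.mp he₁ with ⟨_, z, hz, hze⟩
      rcases mem_tE.mp he₂ with ⟨h5, _⟩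
      have h6 : fam i z ∈ Sym2.map (fam i') e₂ := by
        rw [he₂']
        exact Sym2.mem_map.mpr ⟨z, hze, rfl⟩
      obtain ⟨v, hv, hv'⟩ := Sym2.mem_map.mp h6
      by_cases hvB : v ∈ B
      · exact hdj i i' hii z hz v hvB hv'.symm
      · have hvK : v ∈ K := by
          induction e₂ using Sym2.ind with
          | _ a b =>
            rcases Sym2.mem_iff.mp hv with rfl | rfl
            · exact hends _ _ h5 hvB
            · exact hends _ _ (show P.Adj a v from h5).symm hvB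
        rw [hag i' i v hvK] at hv'
        have h7 := hinj _ hv'
        exact hKB v hvK (h7 ▸ hz)
  have hXle : X.card ≤ numEdges (petG (ι := ι) P B K) := by
    refine le_numEdges ιm X ?_
    intro e he
    obtain ⟨i, _, hi⟩ := Finset.mem_biUnion.mp he
    obtain ⟨e₀, he₀, rfl⟩ := Finset.mem_image.mp hi
    rcases mem_tE.mp he₀ with ⟨h5, _⟩
    induction e₀ using Sym2.ind with
    | _ a b =>
      have hab : P.Adj a b := h5
      by_cases ha : a ∈ B
      · by_cases hb : b ∈ B
        · refine ⟨s(Sum.inr (i, ⟨a, ha⟩), Sum.inr (i, ⟨b, hb⟩)), ?_, ?_⟩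
          · exact ⟨rfl, hab⟩
          · rfl
        · have hbK : b ∈ K := hends _ _ hab.symm hb
          refine ⟨s(Sum.inr (i, ⟨a, ha⟩), Sum.inl ⟨b, hbK⟩), ?_, ?_⟩
          · exact hab
          · show s(fam i a, fam i₀ b) = s(fam i a, fam i b)
            rw [hag i₀ i b hbK]
      · have haK : a ∈ K := hends _ _ hab ha
        have hb : b ∈ B := by
          rcases htouch a b hab with h | h
          · exact absurd h ha
          · exact h
        refine ⟨s(Sum.inl ⟨a, haK⟩, Sum.inr (i, ⟨b, hb⟩)), ?_, ?_⟩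
        · exact hab
        · show s(fam i₀ a, fam i b) = s(fam i a, fam i b)
          rw [hag i₀ i a haK]
  have h4 : q ^ numEdges (petG (ι := ι) P B K) ≤ q ^ (Fintype.card ι * (tE P B).card) := by
    rw [← hXcard]
    exact pow_le_pow_of_le_one hq.le hq1 hXle
  have hnpos : (0 : ℝ) ≤ (n : ℝ) ^ (K.card + Fintype.card ι * B.card) := by positivity
  calc ((Fintype.card ι)! : ℝ) ≤ _ := h3
    _ ≤ _ := h1
    _ ≤ (n : ℝ) ^ (K.card + Fintype.card ι * B.card) * q ^ (Fintype.card ι * (tE P B).card) :=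
        mul_le_mul_of_nonneg_left h4 hnpos
    _ = (n : ℝ) ^ K.card * ((n : ℝ) ^ B.card * q ^ (tE P B).card) ^ Fintype.card ι := by
        rw [mul_pow, ← pow_mul, ← pow_mul, pow_add]
        ring_nf

end Vale.Agent.Lib.P064h
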