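import Mathlib

/-!
A greedy exploration of a pattern graph: counting a family of maps by following a heaviest branch
of the decision tree, and the structure of the steps of high cost.
-/

namespace Vale.Agent.Lib.P064h

open Finset
open scoped Classical

set_option linter.unusedSectionVars false
set_option linter.unusedVariables false

variable {Z V : Type*} [Fintype Z]

/-- The number of members of the edge set `X` that contain the vertex `v`. -/
noncomputable def degX (X : Finset (Sym2 V)) (v : V) : ℕ := (X.filter (fun e => v ∈ e)).card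

/-- A greedy order on `Y` with initially placed set `T₀`, with respect to the weights `dg`:
each `z ∈ Y` is reached from an earlier placed neighbour `par z` of least weight among the placed
vertices that have an unplaced neighbour. -/
structure PrimOrder (P : SimpleGraph Z) (T₀ Y : Finset Z) (dg tm δ : Z → ℕ) (par : Z → Z) : Prop where
  inj : ∀ z ∈ Y, ∀ w ∈ Y, tm z = tm w → z = w
  par_mem : ∀ z ∈ Y, par z ∈ T₀ ∨ (par z ∈ Y ∧ tm (par z) < tm z)
  par_adj : ∀ z ∈ Y, P.Adj (par z) z
  delta : ∀ z ∈ Y, δ z = dg (par z)
  least : ∀ z ∈ Y, ∀ p, (p ∈ T₀ ∨ (p ∈ Y ∧ tm p < tm z)) → ∀ w ∈ Y, tm z ≤ tm w → P.Adj p w →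
    δ z ≤ dg p

/-- Few values in a neighbourhood. -/
lemma card_nbr_le (X : Finset (Sym2 V)) (v : V) (A : Finset V) (hA : ∀ w ∈ A, s(v, w) ∈ X) :
    A.card ≤ degX X v := by
  unfold degX
  refine Finset.card_le_card_of_injOn (fun w => s(v, w)) ?_ ?_
  · intro w hw
    exact Finset.mem_coe.mpr (Finset.mem_filter.mpr ⟨hA w hw, Sym2.mem_mk_left v w⟩)
  · intro a _ b _ hab
    exact Sym2.congr_right.mp hab

/-- Follow a heaviest branch of the greedy decision tree. -/
theorem prim_heavy (P : SimpleGraph Z) (X : Finset (Sym2 V)) :
    ∀ (m : ℕ) (T₀ Y : Finset Z), Y.card = m → Disjoint T₀ Y →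
      (∀ S ⊆ Y, S.Nonempty → ∃ p ∈ (T₀ ∪ Y) \ S, ∃ z ∈ S, P.Adj p z) →
      ∀ (G : Finset (Z → V)), G.Nonempty →
        (∀ f ∈ G, ∀ f' ∈ G, ∀ t ∈ T₀, f t = f' t) →
        (∀ f ∈ G, ∀ f' ∈ G, (∀ t ∈ T₀ ∪ Y, f t = f' t) → f = f') →
        (∀ f ∈ G, ∀ u w, P.Adj u w → s(f u, f w) ∈ X) →
        ∃ f ∈ G, ∃ (tm δ : Z → ℕ) (par : Z → Z),
          PrimOrder P T₀ Y (fun r => degX X (f r)) tm δ par ∧ G.card ≤ ∏ z ∈ Y, δ z := by
  intro m
  induction m with
  | zero =>
    intro T₀ Y hY hdisj _ G hG hagree hdist _
    have hY0 : Y = ∅ := Finset.card_eq_zero.mp hY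
    subst hY0
    obtain ⟨f, hf⟩ := hG
    refine ⟨f, hf, fun _ => 0, fun _ => 0, id, ⟨?_, ?_, ?_, ?_, ?_⟩, ?_⟩
    · intro z hz; simp at hz
    · intro z hz; simp at hz
    · intro z hz; simp at hz
    · intro z hz; simp at hz
    · intro z hz; simp at hz
    · simp only [Finset.prod_empty]
      refine Finset.card_le_one.mpr fun a ha b hb => ?_
      refine hdist a ha b hb fun t ht => ?_
      rw [Finset.union_empty] at ht
      exact hagree a ha b hb t ht
  | succ m ih =>
    intro T₀ Y hY hdisj hreach G hG hagree hdist hX
    have hYne : Y.Nonempty := by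
      rw [← Finset.card_pos]; omega
    -- candidates
    obtain ⟨f₀, hf₀⟩ := hG
    set C : Finset Z := T₀.filter (fun p => ∃ z ∈ Y, P.Adj p z) with hC
    have hCne : C.Nonempty := by
      obtain ⟨p, hp, z, hz, hpz⟩ := hreach Y (Finset.Subset.refl _) hYne
      have hp' : p ∈ T₀ := by
        rcases Finset.mem_sdiff.mp hp with ⟨h1, h2⟩
        rcases Finset.mem_union.mp h1 with h | h
        · exact h
        · exact absurd h h2
      exact ⟨p, Finset.mem_filter.mpr ⟨hp', z, hz, hpz⟩⟩
    obtain ⟨p, hpC, hpmin⟩ := Finset.exists_min_image C (fun r => degX X (f₀ r)) hCne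
    rcases Finset.mem_filter.mp hpC with ⟨hpT, z, hzY, hpz⟩
    have hzT : z ∉ T₀ := fun h => (Finset.disjoint_left.mp hdisj h) hzY
    set d := degX X (f₀ p) with hd
    -- the values of `f z`
    set A : Finset V := G.image (fun f => f z) with hA
    have hAd : A.card ≤ d := by
      refine card_nbr_le X (f₀ p) A fun v hv => ?_
      obtain ⟨f, hf, rfl⟩ := Finset.mem_image.mp hv
      have h1 := hX f hf p z hpz
      rwa [hagree f hf f₀ hf₀ p hpT] at h1
    have hAne : A.Nonempty := ⟨f₀ z, Finset.mem_image_of_mem _ hf₀⟩
    obtain ⟨v, hvA, hvmax⟩ := Finset.exists_max_image A (fun v => (G.filter (fun f => f z = v)).card) hAne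
    set G' := G.filter (fun f => f z = v) with hG'
    have hGcard : G.card ≤ d * G'.card := by
      have h1 : G.card = ∑ w ∈ A, (G.filter (fun f => f z = w)).card :=
        Finset.card_eq_sum_card_image (fun f => f z) G
      rw [h1]
      calc ∑ w ∈ A, (G.filter (fun f => f z = w)).card ≤ ∑ _w ∈ A, G'.card :=
            Finset.sum_le_sum fun w hw => hvmax w hw
        _ = A.card * G'.card := by rw [Finset.sum_const, smul_eq_mul]
        _ ≤ d * G'.card := Nat.mul_le_mul_right _ hAd
    have hG'ne : G'.Nonempty := by
      obtain ⟨f, hf, hfv⟩ := Finset.mem_image.mp hvA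
      exact ⟨f, Finset.mem_filter.mpr ⟨hf, hfv⟩⟩
    have hG'sub : G' ⊆ G := Finset.filter_subset _ _
    have hU : insert z T₀ ∪ Y.erase z = T₀ ∪ Y := by
      ext t
      simp only [Finset.mem_union, Finset.mem_insert, Finset.mem_erase]
      constructor
      · rintro ((h | h) | ⟨_, h⟩)
        · right; rw [h]; exact hzY
        · left; exact h
        · right; exact h
      · rintro (h | h)
        · left; right; exact h
        · by_cases h' : t = z
          · left; left; exact h'
          · right; exact ⟨h', h⟩
    obtain ⟨f, hf, tm', δ', par', hord, hprod⟩ := ih (insert z T₀) (Y.erase z)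
      (by rw [Finset.card_erase_of_mem hzY]; omega)
      (by
        rw [Finset.disjoint_left]
        intro t ht ht'
        rcases Finset.mem_insert.mp ht with h | h
        · exact (Finset.mem_erase.mp ht').1 h
        · exact (Finset.disjoint_left.mp hdisj h) (Finset.mem_erase.mp ht').2)
      (by
        intro S hS hSne
        have hS' : S ⊆ Y := hS.trans (Finset.erase_subset _ _)
        rw [hU]
        exact hreach S hS' hSne)
      G' hG'ne
      (by
        intro a ha b hb t ht
        rcases Finset.mem_insert.mp ht with h | h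
        · rw [h, (Finset.mem_filter.mp ha).2, (Finset.mem_filter.mp hb).2]
        · exact hagree a (hG'sub ha) b (hG'sub hb) t h)
      (by
        intro a ha b hb hab
        refine hdist a (hG'sub ha) b (hG'sub hb) fun t ht => ?_
        rw [← hU] at ht
        exact hab t ht)
      (fun a ha => hX a (hG'sub ha))
    have hfG : f ∈ G := hG'sub hf
    have hagree₀ : ∀ t ∈ T₀, f t = f₀ t := fun t ht => hagree f hfG f₀ hf₀ t ht
    refine ⟨f, hfG, fun w => if w = z then 0 else tm' w + 1, Function.update δ' z d,
      Function.update par' z p, ⟨?_, ?_, ?_, ?_, ?_⟩, ?_⟩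
    · -- injectivity
      intro a ha b hb hab
      by_cases h1 : a = z
      · by_cases h2 : b = z
        · rw [h1, h2]
        · simp [h1, h2] at hab
      · by_cases h2 : b = z
        · simp [h1, h2] at hab
        · simp only [h1, h2, if_false, add_left_inj] at hab
          exact hord.inj a (Finset.mem_erase.mpr ⟨h1, ha⟩) b (Finset.mem_erase.mpr ⟨h2, hb⟩) hab
    · -- parents
      intro a ha
      by_cases h1 : a = z
      · left
        subst h1
        simpa using hpT
      · have ha' : a ∈ Y.erase z := Finset.mem_erase.mpr ⟨h1, ha⟩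
        simp only [Function.update_of_ne h1, h1, if_false]
        rcases hord.par_mem a ha' with h | ⟨h, h'⟩
        · rcases Finset.mem_insert.mp h with h | h
          · right
            rw [h]
            exact ⟨hzY, by simp⟩
          · left; exact h
        · right
          have h2 : par' a ≠ z := (Finset.mem_erase.mp h).1
          refine ⟨(Finset.mem_erase.mp h).2, ?_⟩
          simp only [h2, if_false]
          omega
    · -- adjacency
      intro a ha
      by_cases h1 : a = z
      · subst h1
        simpa using hpz
      · simp only [Function.update_of_ne h1]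
        exact hord.par_adj a (Finset.mem_erase.mpr ⟨h1, ha⟩)
    · -- the values
      intro a ha
      by_cases h1 : a = z
      · subst h1
        simp only [Function.update_self]
        rw [hagree₀ p hpT]
      · simp only [Function.update_of_ne h1]
        exact hord.delta a (Finset.mem_erase.mpr ⟨h1, ha⟩)
    · -- least
      intro a ha r hr w hw htw hrw
      by_cases h1 : a = z
      · subst h1
        simp only [Function.update_self]
        have hrT : r ∈ T₀ := by
          rcases hr with h | ⟨_, h⟩
          · exact h
          · simp at h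
        have h2 := hpmin r (Finset.mem_filter.mpr ⟨hrT, w, hw, hrw⟩)
        rw [hagree₀ r hrT]
        exact h2
      · simp only [Function.update_of_ne h1]
        have hwz : w ≠ z := by
          rintro rfl
          simp only [h1, if_false, if_true] at htw
          omega
        simp only [h1, hwz, if_false] at htw
        have ha' : a ∈ Y.erase z := Finset.mem_erase.mpr ⟨h1, ha⟩
        have hw' : w ∈ Y.erase z := Finset.mem_erase.mpr ⟨hwz, hw⟩
        refine hord.least a ha' r ?_ w hw' (by omega) hrw
        rcases hr with h | ⟨h, h'⟩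
        · left; exact Finset.mem_insert_of_mem h
        · by_cases h2 : r = z
          · left; rw [h2]; exact Finset.mem_insert_self _ _
          · right
            simp only [h1, h2, if_false] at h'
            exact ⟨Finset.mem_erase.mpr ⟨h2, h⟩, by omega⟩
    · -- the product
      have h1 : ∏ w ∈ Y, Function.update δ' z d w = d * ∏ w ∈ Y.erase z, δ' w := by
        rw [← Finset.mul_prod_erase Y _ hzY]
        simp only [Function.update_self]
        congr 1
        refine Finset.prod_congr rfl fun w hw => ?_
        exact Function.update_of_ne (Finset.mem_erase.mp hw).1 _ _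
      rw [h1]
      exact hGcard.trans (Nat.mul_le_mul_left _ hprod)

end Vale.Agent.Lib.P064h
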